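import Vale.Agent.P256.PL.D.PackK
import Vale.Agent.P256.PL.D.CNu0

/-!
# P256: kernel check of block 0 of the certificate
-/

namespace Vale.Agent.P256.PL.D

theorem nuc0_length : nuc0.length = 145 := by decide +kernel

theorem blk0 : rowsOK 145 0 (tabN 145 nuc0) 145 0 = true := by decide +kernel

end Vale.Agent.P256.PL.D
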