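import Vale.Agent.P256.PL.D.PackK
import Vale.Agent.P256.PL.D.CNu1

/-!
# P256: kernel check of block 1 of the certificate
-/

namespace Vale.Agent.P256.PL.D

theorem nuc1_length : nuc1.length = 152 := by decide +kernel

theorem blk1 : rowsOK 152 145 (tabN 152 nuc1) 152 0 = true := by decide +kernel

end Vale.Agent.P256.PL.D
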