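import Vale.Agent.P256.PL.D.PackK
import Vale.Agent.P256.PL.D.CNu2

/-!
# P256: kernel check of block 2 of the certificate
-/

namespace Vale.Agent.P256.PL.D

theorem nuc2_length : nuc2.length = 163 := by decide +kernel

theorem blk2 : rowsOK 163 297 (tabN 163 nuc2) 163 0 = true := by decide +kernel

end Vale.Agent.P256.PL.D
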