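import Vale.Agent.P256.PL.D.PackK
import Vale.Agent.P256.PL.D.CNu3

/-!
# P256: kernel check of block 3 of the certificate
-/

namespace Vale.Agent.P256.PL.D

theorem nuc3_length : nuc3.length = 176 := by decide +kernel

theorem blk3 : rowsOK 176 460 (tabN 176 nuc3) 176 0 = true := by decide +kernel

end Vale.Agent.P256.PL.D
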