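import Vale.Agent.P256.PL.D.Pack
import Vale.Agent.P256.PL.D.Blk0
import Vale.Agent.P256.PL.D.Blk1
import Vale.Agent.P256.PL.D.Blk2
import Vale.Agent.P256.PL.D.Blk3

/-!
# P256: the selected equations have only the trivial solution modulo 7
-/

namespace Vale.Agent.P256.PL.D

theorem cert7 (x : ℕ → ZMod 7) (hx : ∀ i < 636, evT (rowT i) x = 0) : ∀ u < 636, x u = 0 := by
  have h0 := blockT 145 0 nuc0 nuc0_length blk0 x fun i hi => hx (0 + i) (by omega)
  have h1 := blockT 152 145 nuc1 nuc1_length blk1 x fun i hi => hx (145 + i) (by omega)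
  have h2 := blockT 163 297 nuc2 nuc2_length blk2 x fun i hi => hx (297 + i) (by omega)
  have h3 := blockT 176 460 nuc3 nuc3_length blk3 x fun i hi => hx (460 + i) (by omega)
  intro u hu
  rcases Nat.lt_or_ge u 145 with h | h
  · simpa using h0 u h
  rcases Nat.lt_or_ge u 297 with h' | h'
  · have := h1 (u - 145) (by omega)
    rwa [show 145 + (u - 145) = u by omega] at this
  rcases Nat.lt_or_ge u 460 with h'' | h''
  · have := h2 (u - 297) (by omega)
    rwa [show 297 + (u - 297) = u by omega] at this
  have := h3 (u - 460) (by omega)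
  rwa [show 460 + (u - 460) = u by omega] at this

end Vale.Agent.P256.PL.D
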