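import Vale.Agent.P256.PL.D.Glue

/-!
# P256: the fast equations modulo `7` are the integer equations modulo `7`.
-/

namespace Vale.Agent.P256.PL.D

namespace Sem7

open Finset

theorem rT_okM : ∀ b c d g : Fin 9, (RzM b c d g - (rT b c d g : ℤ)) % 7 = 0 := by
  decide +kernel

theorem gT_okM : ∀ a e g : Fin 9, (GzM a e g - (gT a e g : ℤ)) % 7 = 0 := by decide +kernel

theorem rT_ok (b c d g : Fin 9) : (Rz b c d g - (rT b c d g : ℤ)) % 7 = 0 := by
  rw [Rz_eq]
  exact rT_okM b c d g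

theorem gT_ok (a e g : Fin 9) : (Gz a e g - (gT a e g : ℤ)) % 7 = 0 := by
  rw [Gz_eq]
  exact gT_okM a e g

theorem uT_ok : ∀ (i j : Fin 9) (p : Fin 21),
    (Uz p i j - ((((uT i j).filter fun t => t.2 == (p : ℕ)).map fun t => t.1).sum : ℕ)) % 7 = 0 := by
  decide +kernel

theorem uT_lt : ∀ i j : Fin 9, ∀ t ∈ uT i j, t.2 < 21 := by decide +kernel

theorem rT_lt : ∀ b c d g : Fin 9, rT b c d g < 7 := by decide +kernel

theorem gT_lt : ∀ a e g : Fin 9, gT a e g < 7 := by decide +kernel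

theorem gi_lt : ∀ a e g : Fin 9, gi a e g < 636 := by decide +kernel

theorem si_lt : ∀ p q : Fin 21, si p q < 636 := by decide +kernel

theorem cast_ok {z : ℤ} {n : ℕ} (h : (z - (n : ℤ)) % 7 = 0) : (z : ZMod 7) = (n : ZMod 7) := by
  have h1 : ((z - (n : ℤ) : ℤ) : ZMod 7) = 0 :=
    (ZMod.intCast_zmod_eq_zero_iff_dvd _ 7).2 (Int.dvd_of_emod_eq_zero h)
  push_cast at h1
  exact sub_eq_zero.1 h1

theorem ngm_cast {c : ℕ} (h : c < 7) : ((ngm c : ℕ) : ZMod 7) = -(c : ZMod 7) := by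
  unfold ngm
  have h1 : Nat.mod (7 - c) 7 = (7 - c) % 7 := rfl
  rw [h1, ZMod.natCast_mod, Nat.cast_sub h.le]
  have h2 : ((7 : ℕ) : ZMod 7) = 0 := ZMod.natCast_self 7
  rw [h2, zero_sub]

section gen

variable {A : Type*}

theorem evT_nil [CommSemiring A] (x : ℕ → A) : evT [] x = 0 := rfl

theorem evT_cons [CommSemiring A] (t : ℕ × ℕ) (l : List (ℕ × ℕ)) (x : ℕ → A) :
    evT (t :: l) x = (t.1 : A) * x t.2 + evT l x := by
  simp [evT]

theorem evT_append [CommSemiring A] (l l' : List (ℕ × ℕ)) (x : ℕ → A) :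
    evT (l ++ l') x = evT l x + evT l' x := by
  simp [evT]

theorem evT_flatMap [CommSemiring A] {ι : Type*} (l : List ι) (f : ι → List (ℕ × ℕ))
    (x : ℕ → A) : evT (l.flatMap f) x = (l.map fun a => evT (f a) x).sum := by
  induction l with
  | nil => rfl
  | cons a l ih => rw [List.flatMap_cons, evT_append, ih, List.map_cons, List.sum_cons]

theorem evZ_append [CommRing A] (l l' : List (ℤ × ℕ)) (x : ℕ → A) :
    evZ (l ++ l') x = evZ l x + evZ l' x := by
  simp [evZ]

theorem evZ_flatMap [CommRing A] {ι : Type*} (l : List ι) (f : ι → List (ℤ × ℕ))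
    (x : ℕ → A) : evZ (l.flatMap f) x = (l.map fun a => evZ (f a) x).sum := by
  induction l with
  | nil => rfl
  | cons a l ih => rw [List.flatMap_cons, evZ_append, ih, List.map_cons, List.sum_cons]

theorem evZ_single [CommRing A] (c : ℤ) (u : ℕ) (x : ℕ → A) :
    evZ [(c, u)] x = (c : A) * x u := by
  simp [evZ]

theorem evT_one [CommSemiring A] (c u : ℕ) (x : ℕ → A) :
    evT (one c u) x = (c : A) * x u := by
  unfold one
  cases h : Nat.beq c 0 with
  | true =>
    have h0 : c = 0 := Nat.eq_of_beq_eq_true h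
    simp [h0, evT]
  | false => simp [evT]

theorem sum_range_list [AddCommMonoid A] (n : ℕ) (f : ℕ → A) :
    ((List.range n).map f).sum = ∑ i ∈ range n, f i := by
  rw [Finset.sum_range]
  rw [← List.sum_ofFn]
  congr 1
  apply List.ext_getElem
  · simp
  · intro i h1 h2
    simp

theorem list_filter_sum [CommSemiring A] (n : ℕ) (f : ℕ → A) (l : List (ℕ × ℕ))
    (h : ∀ t ∈ l, t.2 < n) :
    (l.map fun t => (t.1 : A) * f t.2).sum =
      ∑ p ∈ range n, ((((l.filter fun t => t.2 == p).map fun t => t.1).sum : ℕ) : A) * f p := by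
  induction l with
  | nil => simp
  | cons t l ih =>
    rw [List.map_cons, List.sum_cons, ih fun t ht => h t (List.mem_cons_of_mem _ ht)]
    have h1 : ∀ p, ((((t :: l).filter fun t => t.2 == p).map fun t => t.1).sum) =
        (if t.2 = p then t.1 else 0) + ((l.filter fun t => t.2 == p).map fun t => t.1).sum := by
      intro p
      by_cases hp : t.2 = p
      · simp [hp]
      · simp [hp]
    simp only [h1]
    push_cast
    simp only [add_mul, Finset.sum_add_distrib]
    congr 1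
    rw [Finset.sum_eq_single t.2]
    · simp
    · intro p _ hp
      simp [hp.symm]
    · intro ht
      exact absurd (Finset.mem_range.2 (h t List.mem_cons_self)) ht

end gen

/-- The value of the `s`-part. -/
def SS {A : Type*} [CommRing A] (x : ℕ → A) (i j l m : ℕ) : A :=
  ∑ p ∈ range 21, ∑ q ∈ range 21, ((Uz p i j : ℤ) : A) * ((Uz q l m : ℤ) : A) * x (si p q)

theorem evZ_vZ {A : Type*} [CommRing A] (c : ℤ) (i j l m : ℕ) (x : ℕ → A) :
    evZ (vZ c i j l m) x = (c : A) * SS x i j l m := by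
  unfold vZ
  rw [evZ_flatMap, sum_range_list, SS, Finset.mul_sum]
  refine Finset.sum_congr rfl fun p _ => ?_
  unfold evZ
  rw [List.map_map, sum_range_list, Finset.mul_sum]
  refine Finset.sum_congr rfl fun q _ => ?_
  simp only [Function.comp]
  push_cast
  ring

theorem uT_sum (i j : ℕ) (hi : i < 9) (hj : j < 9) (f : ℕ → ZMod 7) :
    ((uT i j).map fun t => (t.1 : ZMod 7) * f t.2).sum =
      ∑ p ∈ range 21, ((Uz p i j : ℤ) : ZMod 7) * f p := by
  rw [list_filter_sum 21 f _ (uT_lt ⟨i, hi⟩ ⟨j, hj⟩)]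
  refine Finset.sum_congr rfl fun p hp => ?_
  have h := cast_ok (uT_ok ⟨i, hi⟩ ⟨j, hj⟩ ⟨p, Finset.mem_range.1 hp⟩)
  simp only at h
  rw [h]

theorem evT_vT (c i j l m : ℕ) (hi : i < 9) (hj : j < 9) (hl : l < 9) (hm : m < 9)
    (x : ℕ → ZMod 7) : evT (vT c i j l m) x = (c : ZMod 7) * SS x i j l m := by
  unfold vT
  cases h : Nat.beq c 0 with
  | true =>
    have h0 : c = 0 := Nat.eq_of_beq_eq_true h
    simp [h0, evT]
  | false =>
    simp only [cond_false]
    rw [evT_flatMap]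
    have h1 : ∀ t : ℕ × ℕ, evT ((uT l m).map fun r => (Nat.mod (c * t.1 * r.1) 7, si t.2 r.2)) x =
        (t.1 : ZMod 7) * ((c : ZMod 7) * ∑ q ∈ range 21, ((Uz q l m : ℤ) : ZMod 7) *
          x (si t.2 q)) := by
      intro t
      rw [← uT_sum l m hl hm fun q => x (si t.2 q)]
      unfold evT
      rw [List.map_map, ← List.sum_map_mul_left, ← List.sum_map_mul_left]
      congr 1
      refine List.map_congr_left fun r _ => ?_
      simp only [Function.comp]
      have h2 : Nat.mod (c * t.1 * r.1) 7 = (c * t.1 * r.1) % 7 := rfl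
      rw [h2, ZMod.natCast_mod]
      push_cast
      ring
    simp only [h1]
    rw [uT_sum i j hi hj fun p => (c : ZMod 7) * ∑ q ∈ range 21, ((Uz q l m : ℤ) : ZMod 7) *
          x (si p q)]
    rw [SS, Finset.mul_sum]
    refine Finset.sum_congr rfl fun p _ => ?_
    rw [Finset.mul_sum, Finset.mul_sum, Finset.mul_sum]
    refine Finset.sum_congr rfl fun q _ => ?_
    ring

theorem cyT_eq (x y z d e : ℕ) (hx : x < 9) (hy : y < 9) (hz : z < 9) (hd : d < 9) (he : e < 9)
    (v : ℕ → ZMod 7) : evT (cyT x y z d e) v = evZ (cyZ x y z d e) v := by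
  unfold cyT cyZ
  rw [evT_flatMap, evZ_flatMap, sum_range_list, sum_range_list]
  refine Finset.sum_congr rfl fun g hg => ?_
  have hg9 : g < 9 := Finset.mem_range.1 hg
  have r1 := cast_ok (rT_ok ⟨y, hy⟩ ⟨z, hz⟩ ⟨d, hd⟩ ⟨g, hg9⟩)
  have r2 := cast_ok (rT_ok ⟨y, hy⟩ ⟨z, hz⟩ ⟨g, hg9⟩ ⟨e, he⟩)
  have r3 := rT_lt ⟨y, hy⟩ ⟨z, hz⟩ ⟨g, hg9⟩ ⟨e, he⟩
  have g1 := cast_ok (gT_ok ⟨x, hx⟩ ⟨e, he⟩ ⟨g, hg9⟩)
  have g2 := cast_ok (gT_ok ⟨x, hx⟩ ⟨d, hd⟩ ⟨g, hg9⟩)
  have g3 := gT_lt ⟨x, hx⟩ ⟨e, he⟩ ⟨g, hg9⟩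
  have g4 := gT_lt ⟨x, hx⟩ ⟨d, hd⟩ ⟨g, hg9⟩
  simp only at r1 r2 r3 g1 g2 g3 g4
  simp only [evT_append, evZ_append, evT_one, evZ_single, evZ_vZ]
  rw [evT_vT _ _ _ _ _ hy hd hz hg9, evT_vT _ _ _ _ _ hy hg9 hz hd,
    evT_vT _ _ _ _ _ hy hg9 hz he, evT_vT _ _ _ _ _ hy he hz hg9,
    ngm_cast r3, ngm_cast g3, ngm_cast g4]
  push_cast
  rw [r1, r2, g1, g2]

theorem biT_eq (a b c d e : ℕ) (ha : a < 9) (hb : b < 9) (hc : c < 9) (hd : d < 9) (he : e < 9)
    (v : ℕ → ZMod 7) : evT (biT a b c d e) v = evZ (biZ a b c d e) v := by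
  unfold biT biZ
  rw [evT_append, evT_append, evZ_append, evZ_append, cyT_eq a b c d e ha hb hc hd he,
    cyT_eq b c a d e hb hc ha hd he, cyT_eq c a b d e hc ha hb hd he]

theorem codeT_eq (c : ℕ) (v : ℕ → ZMod 7) : evT (codeT c) v = evZ (codeZ c) v := by
  unfold codeT codeZ
  cases h1 : Nat.ble 59059 c with
  | true => simp [evT, evZ]
  | false =>
    cases h2 : Nat.ble 59058 c with
    | true => simp [evT, evZ]
    | false =>
      cases h3 : Nat.ble 59049 c with
      | true => simp [evT, evZ, Function.comp_def]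
      | false =>
        simp only [cond_false]
        have hc : c < 59049 := by
          by_contra hh
          have := Nat.ble_eq_true_of_le (not_lt.1 hh)
          rw [this] at h3
          exact absurd h3 (by decide)
        exact biT_eq _ _ _ _ _ (by omega) (Nat.mod_lt _ (by norm_num))
          (Nat.mod_lt _ (by norm_num)) (Nat.mod_lt _ (by norm_num)) (Nat.mod_lt _ (by norm_num)) v

/-! ## The indices are `< 636` -/

theorem vZ_lt (c : ℤ) (i j l m : ℕ) : ∀ t ∈ vZ c i j l m, t.2 < 636 := by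
  intro t ht
  unfold vZ at ht
  simp only [List.mem_flatMap, List.mem_map, List.mem_range] at ht
  obtain ⟨p, hp, q, hq, rfl⟩ := ht
  exact si_lt ⟨p, hp⟩ ⟨q, hq⟩

theorem cyZ_lt (x y z d e : ℕ) (hx : x < 9) (hd : d < 9) (he : e < 9) :
    ∀ t ∈ cyZ x y z d e, t.2 < 636 := by
  intro t ht
  unfold cyZ at ht
  simp only [List.mem_flatMap, List.mem_range, List.mem_append, List.mem_singleton] at ht
  obtain ⟨g, hg, h | h | h | h | h | h⟩ := ht
  · rw [h]
    exact gi_lt ⟨x, hx⟩ ⟨e, he⟩ ⟨g, hg⟩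
  · rw [h]
    exact gi_lt ⟨x, hx⟩ ⟨d, hd⟩ ⟨g, hg⟩
  · exact vZ_lt _ _ _ _ _ t h
  · exact vZ_lt _ _ _ _ _ t h
  · exact vZ_lt _ _ _ _ _ t h
  · exact vZ_lt _ _ _ _ _ t h

theorem codeZ_lt (c : ℕ) : ∀ t ∈ codeZ c, t.2 < 636 := by
  unfold codeZ
  cases h1 : Nat.ble 59059 c with
  | true =>
    intro t ht
    simp only [cond_true, List.mem_singleton] at ht
    rw [ht]
    exact si_lt 0 0
  | false =>
    cases h2 : Nat.ble 59058 c with
    | true =>
      intro t ht
      simp only [cond_false, cond_true, List.mem_singleton] at ht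
      rw [ht]
      exact gi_lt 0 0 3
    | false =>
      cases h3 : Nat.ble 59049 c with
      | true =>
        intro t ht
        simp only [cond_false, cond_true, List.mem_map, List.mem_range] at ht
        obtain ⟨g, hg, rfl⟩ := ht
        have hc : c < 59058 := by
          by_contra hh
          have := Nat.ble_eq_true_of_le (not_lt.1 hh)
          rw [this] at h2
          exact absurd h2 (by decide)
        exact gi_lt ⟨c - 59049, by omega⟩ ⟨g, hg⟩ ⟨g, hg⟩
      | false =>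
        intro t ht
        have hc : c < 59049 := by
          by_contra hh
          have := Nat.ble_eq_true_of_le (not_lt.1 hh)
          rw [this] at h3
          exact absurd h3 (by decide)
        have ha : c / 6561 < 9 := by omega
        have hm : ∀ n : ℕ, n % 9 < 9 := fun n => Nat.mod_lt _ (by norm_num)
        simp only [cond_false, biZ, List.mem_append] at ht
        rcases ht with h | h | h
        · exact cyZ_lt _ _ _ _ _ ha (hm _) (hm _) t h
        · exact cyZ_lt _ _ _ _ _ (hm _) (hm _) (hm _) t h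
        · exact cyZ_lt _ _ _ _ _ (hm _) (hm _) (hm _) t h

end Sem7

/-- The fast equations modulo `7` are the integer equations modulo `7`. -/
theorem evT_rowT (i : ℕ) (x : ℕ → ZMod 7) : evT (rowT i) x = evZ (rowZ i) x :=
  Sem7.codeT_eq (eqc i) x

/-- All the unknowns have numbers `< 636`. -/
theorem rowZ_lt : ∀ i < 636, ∀ t ∈ rowZ i, t.2 < 636 := fun i _ => Sem7.codeZ_lt (eqc i)

end Vale.Agent.P256.PL.D
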