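import Vale.Agent.P256.PL.D.FinalOf

/-!
# P256: real semantics of the rows.
-/

namespace Vale.Agent.P256.PL.D

namespace SB

variable {A : Type*} [CommRing A]

theorem ev_nil (x : ℕ → A) : evZ [] x = 0 := by simp [evZ]

theorem ev_cons (t : ℤ × ℕ) (l : List (ℤ × ℕ)) (x : ℕ → A) :
    evZ (t :: l) x = (t.1 : A) * x t.2 + evZ l x := by simp [evZ]

theorem ev_append (l l' : List (ℤ × ℕ)) (x : ℕ → A) :
    evZ (l ++ l') x = evZ l x + evZ l' x := by simp [evZ]

theorem ev_flatMap_range (n : ℕ) (f : ℕ → List (ℤ × ℕ)) (x : ℕ → A) :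
    evZ ((List.range n).flatMap f) x = ∑ i : Fin n, evZ (f i) x := by
  induction n with
  | zero => simp [evZ]
  | succ n ih =>
    rw [List.range_succ, List.flatMap_append, ev_append, ih, Fin.sum_univ_castSucc]
    simp [evZ]

theorem ev_map_range (n : ℕ) (f : ℕ → ℤ × ℕ) (x : ℕ → A) :
    evZ ((List.range n).map f) x = ∑ i : Fin n, ((f i).1 : A) * x (f i).2 := by
  induction n with
  | zero => simp [evZ]
  | succ n ih =>
    rw [List.range_succ, List.map_append, ev_append, ih, Fin.sum_univ_castSucc]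
    simp [evZ]

theorem dT_gi : ∀ a e g : Fin 9, dT (gi a e g) = (a * 9 + e) * 9 + g ∨
    dT (gi a e g) = (e * 9 + a) * 9 + g := by
  decide +kernel

theorem dT_si : ∀ p q : Fin 21, dT (si p q) = 729 + p * 21 + q ∨
    dT (si p q) = 729 + q * 21 + p := by
  decide +kernel

/-- The vector of unknowns. -/
noncomputable def xv (G : Fin 9 → Fin 9 → Fin 9 → ℝ) (s : Matrix (Fin 21) (Fin 21) ℝ) (u : ℕ) :
    ℝ :=
  if dT u < 729 then G (Fin.ofNat 9 (dT u / 81)) (Fin.ofNat 9 (dT u / 9)) (Fin.ofNat 9 (dT u))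
  else s (Fin.ofNat 21 ((dT u - 729) / 21)) (Fin.ofNat 21 (dT u - 729))

theorem xv_gi {G : Fin 9 → Fin 9 → Fin 9 → ℝ} (s : Matrix (Fin 21) (Fin 21) ℝ)
    (hG : ∀ a e g, G a e g = G e a g) (a e g : Fin 9) : xv G s (gi a e g) = G a e g := by
  have main : ∀ (u : ℕ) (a e g : Fin 9), dT u = (a * 9 + e) * 9 + g → xv G s u = G a e g := by
    intro u a e g h
    have ha := a.2
    have he := e.2
    have hg := g.2
    have h1 : dT u < 729 := by omega
    have e1 : Fin.ofNat 9 (dT u / 81) = a := by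
      apply Fin.ext
      simp only [Fin.ofNat]
      omega
    have e2 : Fin.ofNat 9 (dT u / 9) = e := by
      apply Fin.ext
      simp only [Fin.ofNat]
      omega
    have e3 : Fin.ofNat 9 (dT u) = g := by
      apply Fin.ext
      simp only [Fin.ofNat]
      omega
    unfold xv
    rw [if_pos h1, e1, e2, e3]
  rcases dT_gi a e g with h | h
  · exact main _ a e g h
  · rw [main _ e a g h, hG]

theorem xv_si (G : Fin 9 → Fin 9 → Fin 9 → ℝ) {s : Matrix (Fin 21) (Fin 21) ℝ}
    (hs : ∀ p q, s p q = s q p) (p q : Fin 21) : xv G s (si p q) = s p q := by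
  have main : ∀ (u : ℕ) (p q : Fin 21), dT u = 729 + p * 21 + q → xv G s u = s p q := by
    intro u p q h
    have hp := p.2
    have hq := q.2
    have h1 : ¬ dT u < 729 := by omega
    have e1 : Fin.ofNat 21 ((dT u - 729) / 21) = p := by
      apply Fin.ext
      simp only [Fin.ofNat]
      omega
    have e2 : Fin.ofNat 21 (dT u - 729) = q := by
      apply Fin.ext
      simp only [Fin.ofNat]
      omega
    unfold xv
    rw [if_neg h1, e1, e2]
  rcases dT_si p q with h | h
  · exact main _ p q h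
  · rw [main _ q p h, hs]

/-- The tensor `∑ s_pq U_p U_q`. -/
noncomputable def XS (s : Matrix (Fin 21) (Fin 21) ℝ) (i j l m : Fin 9) : ℝ :=
  ∑ p : Fin 21, ∑ q : Fin 21, s p q * ((Uz p i j : ℝ) * (Uz q l m : ℝ))

theorem ev_vZ {x : ℕ → ℝ} {s : Matrix (Fin 21) (Fin 21) ℝ}
    (hx : ∀ p q : Fin 21, x (si p q) = s p q) (c : ℤ) (i j l m : Fin 9) :
    evZ (vZ c i j l m) x = c * XS s i j l m := by
  unfold vZ XS
  rw [ev_flatMap_range, Finset.mul_sum]
  refine Finset.sum_congr rfl fun p _ => ?_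
  rw [ev_map_range, Finset.mul_sum]
  refine Finset.sum_congr rfl fun q _ => ?_
  rw [hx]
  push_cast
  ring

theorem Rs_XS (s : Matrix (Fin 21) (Fin 21) ℝ) (i j l m : Fin 9) :
    Rs (fun (p : Fin 21) (i j : Fin 9) => (Uz p i j : ℝ)) s i j l m =
      XS s i l j m - XS s i m j l := rfl

theorem ev_cyZ {x : ℕ → ℝ} {G : Fin 9 → Fin 9 → Fin 9 → ℝ} {s : Matrix (Fin 21) (Fin 21) ℝ}
    (hx : ∀ a e g : Fin 9, x (gi a e g) = G a e g)
    (hy : ∀ p q : Fin 21, x (si p q) = s p q) (a b c d e : Fin 9) :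
    evZ (cyZ a b c d e) x =
      (∑ g : Fin 9, ((Rz b c d g : ℝ) * G a e g - G a d g * (Rz b c g e : ℝ))) +
      ∑ g : Fin 9, (Rs (fun (p : Fin 21) (i j : Fin 9) => (Uz p i j : ℝ)) s b c d g *
        (Gz a e g : ℝ) - (Gz a d g : ℝ) *
        Rs (fun (p : Fin 21) (i j : Fin 9) => (Uz p i j : ℝ)) s b c g e) := by
  unfold cyZ
  rw [ev_flatMap_range, ← Finset.sum_add_distrib]
  refine Finset.sum_congr rfl fun g _ => ?_
  simp only [ev_append, ev_cons, ev_nil, Rs_XS]
  rw [ev_vZ hy (Gz a e g) b d c g, ev_vZ hy (-Gz a e g) b g c d, ev_vZ hy (-Gz a d g) b g c e,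
    ev_vZ hy (Gz a d g) b e c g, hx, hx]
  push_cast
  ring

theorem ev_biZ {x : ℕ → ℝ} {G : Fin 9 → Fin 9 → Fin 9 → ℝ} {s : Matrix (Fin 21) (Fin 21) ℝ}
    (hx : ∀ a e g : Fin 9, x (gi a e g) = G a e g)
    (hy : ∀ p q : Fin 21, x (si p q) = s p q) (a b c d e : Fin 9) :
    evZ (biZ a b c d e) x =
      Bi (fun i j l m : Fin 9 => (Rz i j l m : ℝ)) G a b c d e +
      Bi (Rs (fun (p : Fin 21) (i j : Fin 9) => (Uz p i j : ℝ)) s)
        (fun a e g : Fin 9 => (Gz a e g : ℝ)) a b c d e := by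
  unfold biZ Bi
  rw [ev_append, ev_append, ev_cyZ hx hy, ev_cyZ hx hy, ev_cyZ hx hy]
  ring

theorem semR : PSemR := by
  intro G s hG hs h h1 h2
  have hs' : ∀ p q, s p q = s q p := fun p q => by
    have := congrFun (congrFun hs q) p
    exact this
  refine ⟨xv G s, xv_gi s hG.1, xv_si G hs', fun i _ => ?_⟩
  have hx := xv_gi s hG.1
  have hy := xv_si G hs'
  unfold rowZ codeZ
  cases hc1 : Nat.ble 59059 (eqc i) with
  | true =>
    simp only [cond_true, ev_cons, ev_nil]
    have := hy 0 0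
    simp only [Fin.val_zero] at this
    rw [this, h2]
    simp
  | false =>
    simp only [cond_false]
    cases hc2 : Nat.ble 59058 (eqc i) with
    | true =>
      simp only [cond_true, ev_cons, ev_nil]
      have := hx 0 0 3
      have e3 : ((3 : Fin 9) : ℕ) = 3 := rfl
      simp only [Fin.val_zero, e3] at this
      rw [this, h1]
      simp
    | false =>
      simp only [cond_false]
      cases hc3 : Nat.ble 59049 (eqc i) with
      | true =>
        simp only [cond_true]
        have l2 : ¬ 59058 ≤ eqc i := fun h' => by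
          rw [Nat.ble_eq_true_of_le h'] at hc2
          exact absurd hc2 (by simp)
        have l3 : 59049 ≤ eqc i := Nat.le_of_ble_eq_true hc3
        have hlt : eqc i - 59049 < 9 := by omega
        rw [ev_map_range]
        have := hG.2 ⟨eqc i - 59049, hlt⟩
        rw [← this]
        refine Finset.sum_congr rfl fun g _ => ?_
        have h3 := hx ⟨eqc i - 59049, hlt⟩ g g
        simp only at h3
        simp only [Int.cast_one, one_mul]
        exact h3
      | false =>
        simp only [cond_false]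
        have l3 : ¬ 59049 ≤ eqc i := fun h' => by
          rw [Nat.ble_eq_true_of_le h'] at hc3
          exact absurd hc3 (by simp)
        have ha : eqc i / 6561 < 9 := by omega
        have hb : eqc i / 729 % 9 < 9 := by omega
        have hc : eqc i / 81 % 9 < 9 := by omega
        have hd : eqc i / 9 % 9 < 9 := by omega
        have he : eqc i % 9 < 9 := by omega
        have h3 := ev_biZ hx hy ⟨_, ha⟩ ⟨_, hb⟩ ⟨_, hc⟩ ⟨_, hd⟩ ⟨_, he⟩
        simp only at h3
        rw [h3]
        exact h _ _ _ _ _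

end SB

end Vale.Agent.P256.PL.D
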