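import Vale.Agent.P256.PL.D.FinalOf

/-!
# P256: transfer of injectivity from `ZMod 7` to the reals.
-/

namespace Vale.Agent.P256.PL.D

namespace TB

/-- The matrix of the rows. -/
def mat (rows : ℕ → List (ℤ × ℕ)) (n : ℕ) : Matrix (Fin n) (Fin n) ℤ := fun i j =>
  ((rows i).map fun t => if t.2 = (j : ℕ) then t.1 else 0).sum

theorem ev_mat {R : Type*} [CommRing R] (n : ℕ) (x : ℕ → R) :
    ∀ l : List (ℤ × ℕ), (∀ t ∈ l, t.2 < n) →
      evZ l x = ∑ j : Fin n, (((l.map fun t => if t.2 = (j : ℕ) then t.1 else 0).sum : ℤ) : R) *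
        x j
  | [], _ => by simp [evZ]
  | t :: l, h => by
    have ih := ev_mat n x l fun t ht => h t (List.mem_cons_of_mem _ ht)
    have ht : t.2 < n := h t List.mem_cons_self
    have e : evZ (t :: l) x = (t.1 : R) * x t.2 + evZ l x := by simp [evZ]
    rw [e, ih]
    simp only [List.map_cons, List.sum_cons, Int.cast_add, add_mul, Finset.sum_add_distrib]
    congr 1
    rw [Finset.sum_eq_single (⟨t.2, ht⟩ : Fin n)]
    · simp
    · intro b _ hb
      have : ¬ t.2 = (b : ℕ) := fun h' => hb (Fin.ext h'.symm)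
      simp [this]
    · simp

theorem transfer : PTransfer := by
  intro rows n hlt h7 x hx u hu
  have : Fact (Nat.Prime 7) := ⟨by norm_num⟩
  have key : ∀ {R : Type} [CommRing R] (x : ℕ → R) (i : Fin n),
      evZ (rows i) x = ((mat rows n).map (Int.castRingHom R)).mulVec (fun j => x j) i := by
    intro R _ x i
    rw [ev_mat n x (rows i) (hlt i i.2)]
    rfl
  have hdet7 : ((mat rows n).map (Int.castRingHom (ZMod 7))).det ≠ 0 := by
    intro h0
    obtain ⟨v, hv, hAv⟩ := Matrix.exists_mulVec_eq_zero_iff.2 h0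
    apply hv
    funext j
    let y : ℕ → ZMod 7 := fun u => if h : u < n then v ⟨u, h⟩ else 0
    have hy : (fun j : Fin n => y j) = v := by
      funext j
      simp [y]
    have := h7 y (fun i hi => by
      rw [key y ⟨i, hi⟩, hy, hAv]
      rfl) j j.2
    rw [← hy]
    exact this
  have hdet : (mat rows n).det ≠ 0 := by
    intro h0
    apply hdet7
    have h := (Int.castRingHom (ZMod 7)).map_det (mat rows n)
    rw [h0, map_zero] at h
    exact h.symm
  have hdetR : ((mat rows n).map (Int.castRingHom ℝ)).det ≠ 0 := by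
    have h := (Int.castRingHom ℝ).map_det (mat rows n)
    have h2 : ((mat rows n).map (Int.castRingHom ℝ)).det = ((mat rows n).det : ℝ) := h.symm
    rw [h2]
    exact_mod_cast hdet
  by_contra hne
  apply hdetR
  rw [← Matrix.exists_mulVec_eq_zero_iff]
  refine ⟨fun j => x j, fun h => hne (congrFun h ⟨u, hu⟩), ?_⟩
  funext i
  rw [← key x i]
  exact hx i i.2

end TB

end Vale.Agent.P256.PL.D
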