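import Vale.Agent.P256.PL.D.Data
import Vale.Agent.P256.PL.D.CTab

/-!
# P256: the certificate for `rigid`. Definitions.

`rowZ i` is the `i`-th selected equation as a list of (integer coefficient, number of the unknown);
`rowT i` is the same equation modulo `7`, without the zero terms.
-/

namespace Vale.Agent.P256.PL.D

/-- Value of a sparse linear form with natural coefficients. -/
def evT {A : Type*} [CommSemiring A] (l : List (ℕ × ℕ)) (x : ℕ → A) : A :=
  (l.map fun t => (t.1 : A) * x t.2).sum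

/-- Value of a sparse linear form with integer coefficients. -/
def evZ {A : Type*} [CommRing A] (l : List (ℤ × ℕ)) (x : ℕ → A) : A :=
  (l.map fun t => (t.1 : A) * x t.2).sum

/-- The `i`-th digit of `T` in base `2 ^ w`. -/
def slot (T w i : ℕ) : ℕ := Nat.mod (Nat.shiftRight T (Nat.mul w i)) (Nat.pow 2 w)

/-- `Rz b c d e` modulo `7`. -/
def rT (b c d e : ℕ) : ℕ := slot RTab 4 (((b * 9 + c) * 9 + d) * 9 + e)

/-- `Gz a e g` modulo `7`. -/
def gT (a e g : ℕ) : ℕ := slot GTab 4 ((a * 9 + e) * 9 + g)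

/-- The number of the unknown `G a e g`. -/
def gi (a e g : ℕ) : ℕ := slot GIx 12 ((a * 9 + e) * 9 + g)

/-- The number of the unknown `s p q`. -/
def si (p q : ℕ) : ℕ := slot SIx 12 (p * 21 + q)

/-- The code of the `i`-th equation. -/
def eqc (i : ℕ) : ℕ := slot EQc 16 i

/-- The code of the `u`-th unknown: `(a*9+e)*9+g` or `729+p*21+q`. -/
def dT (u : ℕ) : ℕ := slot DTab 12 u

/-- Decoding of at most `n` bytes `8 p + c` into pairs `(c, p)`. -/
def decU : ℕ → ℕ → List (ℕ × ℕ)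
  | 0, _ => []
  | n + 1, x => bif Nat.beq x 0 then [] else
      (Nat.mod x 8, Nat.div (Nat.mod x 256) 8) :: decU n (Nat.div x 256)

/-- The list of the `(Uz p i j mod 7, p)` with nonzero first entry. -/
def uT (i j : ℕ) : List (ℕ × ℕ) := decU 5 (slot UTab 48 (i * 9 + j))

/-- Minus `c` modulo `7`. -/
def ngm (c : ℕ) : ℕ := Nat.mod (7 - c) 7

/-- One term. -/
def one (c u : ℕ) : List (ℕ × ℕ) := bif Nat.beq c 0 then [] else [(c, u)]

/-- The terms of `c * ∑ p q, U_p(i,j) U_q(l,m) s_pq`. -/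
def vT (c i j l m : ℕ) : List (ℕ × ℕ) := bif Nat.beq c 0 then [] else
  (uT i j).flatMap fun t => (uT l m).map fun r => (Nat.mod (c * t.1 * r.1) 7, si t.2 r.2)

/-- The terms of the cyclic part `(x; y, z)` of the equation. -/
def cyT (x y z d e : ℕ) : List (ℕ × ℕ) := (List.range 9).flatMap fun g =>
  one (rT y z d g) (gi x e g) ++ (one (ngm (rT y z g e)) (gi x d g) ++
  (vT (gT x e g) y d z g ++ (vT (ngm (gT x e g)) y g z d ++
  (vT (ngm (gT x d g)) y g z e ++ vT (gT x d g) y e z g))))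

/-- The terms of the equation `(a, b, c, d, e)`. -/
def biT (a b c d e : ℕ) : List (ℕ × ℕ) := cyT a b c d e ++ (cyT b c a d e ++ cyT c a b d e)

/-- The equation with code `c`. -/
def codeT (c : ℕ) : List (ℕ × ℕ) :=
  bif Nat.ble 59059 c then [(1, si 0 0)] else
  bif Nat.ble 59058 c then [(1, gi 0 0 3)] else
  bif Nat.ble 59049 c then (List.range 9).map fun g => (1, gi (c - 59049) g g) else
  biT (c / 6561) (c / 729 % 9) (c / 81 % 9) (c / 9 % 9) (c % 9)

/-- The `i`-th equation modulo `7`. -/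
def rowT (i : ℕ) : List (ℕ × ℕ) := codeT (eqc i)

/-! ## Integer version -/

/-- `R₀` times `232 * 232560`. -/
def Rz (i j l m : ℕ) : ℤ :=
  (sumN 10 fun a => sumN 10 fun b => tz (i + 1) (l + 1) a * lk PzL a b * tz b (j + 1) (m + 1)) -
  sumN 10 fun a => sumN 10 fun b => tz (i + 1) (m + 1) a * lk PzL a b * tz b (j + 1) (l + 1)

/-- `G₀` with trace. -/
def Gtz (a e g : ℕ) : ℤ := sumN 10 fun b => tz (a + 1) (e + 1) b * lk PzL b (g + 1)

/-- Its trace. -/
def Gtr (a : ℕ) : ℤ := sumN 9 fun g => Gtz a g g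

/-- `G₀`, trace free, times an integer. -/
def Gz (a e g : ℕ) : ℤ := 10 * Gtz a e g - (if e = g then Gtr a else 0) -
  if a = g then Gtr e else 0

/-- The terms of `c * ∑ p q, U_p(i,j) U_q(l,m) s_pq`. -/
def vZ (c : ℤ) (i j l m : ℕ) : List (ℤ × ℕ) :=
  (List.range 21).flatMap fun p => (List.range 21).map fun q =>
    (c * (Uz p i j * Uz q l m), si p q)

/-- The terms of the cyclic part `(x; y, z)` of the equation. -/
def cyZ (x y z d e : ℕ) : List (ℤ × ℕ) := (List.range 9).flatMap fun g =>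
  [(Rz y z d g, gi x e g)] ++ ([(-Rz y z g e, gi x d g)] ++
  (vZ (Gz x e g) y d z g ++ (vZ (-Gz x e g) y g z d ++
  (vZ (-Gz x d g) y g z e ++ vZ (Gz x d g) y e z g))))

/-- The terms of the equation `(a, b, c, d, e)`. -/
def biZ (a b c d e : ℕ) : List (ℤ × ℕ) := cyZ a b c d e ++ (cyZ b c a d e ++ cyZ c a b d e)

/-- The equation with code `c`. -/
def codeZ (c : ℕ) : List (ℤ × ℕ) :=
  bif Nat.ble 59059 c then [(1, si 0 0)] else
  bif Nat.ble 59058 c then [(1, gi 0 0 3)] else
  bif Nat.ble 59049 c then (List.range 9).map fun g => (1, gi (c - 59049) g g) else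
  biZ (c / 6561) (c / 729 % 9) (c / 81 % 9) (c / 9 % 9) (c % 9)

/-- The `i`-th equation. -/
def rowZ (i : ℕ) : List (ℤ × ℕ) := codeZ (eqc i)

end Vale.Agent.P256.PL.D
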