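import Vale.Agent.P256.PL.D.Glue

/-!
# P256: `StmtD` from the parts of the certificate.
-/

namespace Vale.Agent.P256.PL.D

open Matrix

/-- Transfer from `ZMod 7` to the reals. -/
def PTransfer : Prop :=
  ∀ (rows : ℕ → List (ℤ × ℕ)) (n : ℕ), (∀ i < n, ∀ t ∈ rows i, t.2 < n) →
    (∀ x : ℕ → ZMod 7, (∀ i < n, evZ (rows i) x = 0) → ∀ u < n, x u = 0) →
    ∀ x : ℕ → ℝ, (∀ i < n, evZ (rows i) x = 0) → ∀ u < n, x u = 0

/-- Semantics modulo 7. -/
def PSem7 : Prop := ∀ (i : ℕ) (x : ℕ → ZMod 7), i < 636 → evT (rowT i) x = evZ (rowZ i) x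

/-- Indices. -/
def PLt : Prop := ∀ i < 636, ∀ t ∈ rowZ i, t.2 < 636

/-- Real semantics. -/
def PSemR : Prop :=
  ∀ (G : Fin 9 → Fin 9 → Fin 9 → ℝ) (s : Matrix (Fin 21) (Fin 21) ℝ), IsG G → s.IsSymm →
    (∀ a b c d e : Fin 9, Bi (fun i j l m : Fin 9 => (Rz i j l m : ℝ)) G a b c d e +
      Bi (Rs (fun (p : Fin 21) (i j : Fin 9) => (Uz p i j : ℝ)) s)
        (fun a e g : Fin 9 => (Gz a e g : ℝ)) a b c d e = 0) →
    G 0 0 3 = 0 → s 0 0 = 0 →
    ∃ x : ℕ → ℝ, (∀ a e g : Fin 9, x (gi a e g) = G a e g) ∧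
      (∀ p q : Fin 21, x (si p q) = s p q) ∧ ∀ i < 636, evZ (rowZ i) x = 0

/-- The kernel-checked part. -/
def PCert7 : Prop :=
  ∀ x : ℕ → ZMod 7, (∀ i < 636, evT (rowT i) x = 0) → ∀ u < 636, x u = 0

theorem gi_lt : ∀ a e g : Fin 9, gi a e g < 636 := by decide +kernel

theorem si_lt : ∀ p q : Fin 21, si p q < 636 := by decide +kernel

theorem rigidInt_of (hT : PTransfer) (h7 : PSem7) (hl : PLt) (hR : PSemR) (hC : PCert7) :
    RigidInt := by
  intro G s hG hs h h1 h2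
  have e1 : RR = fun i j l m : Fin 9 => (Rz i j l m : ℝ) := by
    funext i j l m
    simp only [RR, Rz_eq]
  have e2 : G0D = fun a e g : Fin 9 => (Gz a e g : ℝ) := by
    funext a e g
    simp only [G0D, Gz_eq]
  have e3 : UD = fun (p : Fin 21) (i j : Fin 9) => (Uz p i j : ℝ) := rfl
  rw [e1, e2, e3] at h
  obtain ⟨x, hx1, hx2, hx3⟩ := hR G s hG hs h h1 h2
  have hx := hT rowZ 636 hl (fun y hy => hC y fun i hi => by rw [h7 i y hi]; exact hy i hi) x hx3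
  refine ⟨?_, ?_⟩
  · funext a e g
    rw [← hx1 a e g]
    exact hx _ (gi_lt a e g)
  · ext p q
    rw [← hx2 p q]
    exact hx _ (si_lt p q)

theorem stmtD_of_parts (hT : PTransfer) (h7 : PSem7) (hl : PLt) (hR : PSemR) (hC : PCert7) :
    StmtD := stmtD_of (rigidInt_of hT h7 hl hR hC)

end Vale.Agent.P256.PL.D
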