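import Vale.Agent.P256.PL.D.Main
import Vale.Agent.P256.PL.D.CDefs

/-!
# P256: the two descriptions of the integer arrays agree.
-/

namespace Vale.Agent.P256.PL.D

open Matrix

theorem FP_int (a : Fin 10) (e f : Fin 10) :
    ∑ b : Fin 10, lk PzL a b * evl (F0L.getD b []) e f = evl (FPL.getD a []) e f := by
  have h := FPz a ⟨pos e f, pos_lt e f⟩
  rw [sumN_eq] at h
  simp only [evl_eq]
  rw [← h, Finset.mul_sum]
  exact Finset.sum_congr rfl fun b _ => by ring

theorem tz_succ_right (b : Fin 10) (l m : Fin 9) :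
    tz b (l + 1) (m + 1) = evl (F0L.getD b []) (l + 1) (m + 1) := rfl

theorem Xz_eq (i j l m : Fin 9) :
    (sumN 10 fun a => sumN 10 fun b =>
      tz (i + 1) (j + 1) a * lk PzL a b * tz b (l + 1) (m + 1)) = Xz i j l m := by
  simp only [Xz, sumN_eq]
  refine Finset.sum_congr rfl fun a _ => ?_
  have h := FP_int a l.succ m.succ
  simp only [Fin.val_succ] at h
  have h2 : tz (i + 1) (j + 1) a = evl (F0L.getD a []) (i + 1) (j + 1) := tz_succ i j a
  rw [h2, ← h, Finset.mul_sum]
  exact Finset.sum_congr rfl fun b _ => by rw [tz_succ_right]; ring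

theorem Rz_eq (i j l m : Fin 9) : Rz i j l m = RzM i j l m := by
  unfold Rz RzM
  rw [Xz_eq i l j m, Xz_eq i m j l]

theorem Gtz_eq (a e g : Fin 9) : Gtz a e g = Guz a e g := by
  simp only [Gtz, Guz, sumN_eq]
  have h := FP_int g.succ a.succ e.succ
  simp only [Fin.val_succ] at h
  rw [← h]
  refine Finset.sum_congr rfl fun b _ => ?_
  have h2 : tz (a + 1) (e + 1) b = evl (F0L.getD b []) (a + 1) (e + 1) := tz_succ a e b
  have h3 : lk PzL b (g + 1) = lk PzL (g + 1) b := Pz_symm b g.succ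
  rw [h2, h3]
  ring

theorem Gtr_eq (a : Fin 9) : Gtr a = trz a := by
  simp only [Gtr, trz, sumN_eq]
  exact Finset.sum_congr rfl fun g _ => Gtz_eq a g g

theorem Gz_eq (a e g : Fin 9) : Gz a e g = GzM a e g := by
  unfold Gz GzM
  rw [Gtz_eq, Gtr_eq, Gtr_eq]

end Vale.Agent.P256.PL.D
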