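import Vale.Agent.P256.PL.D.Data
import Vale.Agent.P256.PL.A4

/-!
# P256: the data condition apart from rigidity.
-/

namespace Vale.Agent.P256.PL.D

open Matrix

/-- The tensor. -/
noncomputable def τD : Tens 9 ℝ := fun a b c => (tz a b c : ℝ) / 232

/-- The matrices `U_p`. -/
noncomputable def UD (p : Fin 21) : Matrix (Fin 9) (Fin 9) ℝ := fun i j => (Uz p i j : ℝ)

/-- The weights. -/
noncomputable def wD (p : Fin 21) : ℝ := 1 / (232 * (nrmL.getD p 1 : ℝ))

/-- `X` as an integer array. -/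
def Xz (i j l m : Nat) : Int :=
  sumN 10 fun a => evl (F0L.getD a []) (i + 1) (j + 1) * evl (FPL.getD a []) (l + 1) (m + 1)

/-- The integer array `232 * 232560 * R₀`. -/
def RzM (i j l m : Nat) : Int := Xz i l j m - Xz i m j l

/-- The integer array of the untraced `G`. -/
def Guz (a e g : Nat) : Int := evl (FPL.getD (g + 1) []) (a + 1) (e + 1)

/-- The traces. -/
def trz (a : Nat) : Int := sumN 9 fun g => Guz a g g

/-- The trace-free integer array `G`. -/
def GzM (a e g : Nat) : Int :=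
  10 * Guz a e g - (if e = g then trz a else 0) - (if a = g then trz e else 0)

/-- `G₀`. -/
noncomputable def G0D : Fin 9 → Fin 9 → Fin 9 → ℝ := fun a e g => (GzM a e g : ℝ)

theorem symT : IsSymT τD :=
  ⟨fun a b c => by simp only [τD, (tz_symm a b c).1],
    fun a b c => by simp only [τD, (tz_symm a b c).2]⟩

theorem tz_zero (a b : Fin 10) : tz a 0 b = yz a b := by
  cases a; rfl

theorem yM_eq (a b : Fin 10) : yM τD a b = (yz a b : ℝ) / 232 := by
  have h : tz (0 : Fin 10) a b = yz a b := by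
    rw [(tz_symm 0 a b).1]
    exact tz_zero a b
  simp only [yM, τD]
  rw [h]

/-- The real matrix `Pz`. -/
noncomputable def PR : Matrix (Fin 10) (Fin 10) ℝ := fun a b => (lk PzL a b : ℝ)

theorem yM_mul : yM τD * PR = (232560 / 232 : ℝ) • (1 : Matrix (Fin 10) (Fin 10) ℝ) := by
  ext a c
  have h := yPz a c
  rw [sumN_eq] at h
  have h2 : ∑ b : Fin 10, (yz a b : ℝ) * (lk PzL b c : ℝ) = if a = c then 232560 else 0 := by
    have := congrArg (Int.cast : Int → ℝ) h
    push_cast at this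
    exact this
  rw [Matrix.mul_apply, Matrix.smul_apply, Matrix.one_apply]
  simp only [yM_eq, PR]
  have h3 : ∑ b : Fin 10, (yz a b : ℝ) / 232 * (lk PzL b c : ℝ) =
      (∑ b : Fin 10, (yz a b : ℝ) * (lk PzL b c : ℝ)) / 232 := by
    rw [Finset.sum_div]
    exact Finset.sum_congr rfl fun b _ => by ring
  rw [h3, h2]
  split_ifs <;> simp

theorem det_ne : (yM τD).det ≠ 0 := by
  intro h0
  have h := congrArg Matrix.det yM_mul
  rw [det_mul, h0, zero_mul, det_smul, det_one, mul_one] at h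
  norm_num at h

theorem adj_eq : (yM τD).adjugate = ((yM τD).det * (232 / 232560)) • PR := by
  have h : (yM τD).adjugate * (yM τD * PR) = (yM τD).det • PR := by
    rw [← Matrix.mul_assoc, adjugate_mul, smul_mul_assoc, Matrix.one_mul]
  rw [yM_mul, Matrix.mul_smul, Matrix.mul_one] at h
  have h2 := congrArg (fun M => (232 / 232560 : ℝ) • M) h
  simp only [smul_smul] at h2
  norm_num at h2
  rw [h2]
  congr 1
  norm_num
  ring

/-- The real matrix `F0`. -/
noncomputable def FR : Matrix (Fin 10) (Fin 31) ℝ := fun a x => (lk F0L a x : ℝ)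

theorem yM_gram : yM τD = (1 / 232 : ℝ) • (FR * FRᴴ) := by
  ext a b
  rw [yM_eq, Matrix.smul_apply, Matrix.mul_apply]
  simp only [yz, sumN_eq, conjTranspose_apply, FR, star_trivial]
  push_cast
  rw [smul_eq_mul]
  ring

theorem posDef : (yM τD).PosDef := by
  have h : (yM τD).PosSemidef := by
    rw [yM_gram]
    exact (posSemidef_self_mul_conjTranspose FR).smul (by norm_num)
  exact h.posDef_iff_det_ne_zero.2 det_ne

theorem evl_eq (l : List (List Int)) (a e f : Nat) :
    evl (l.getD a []) e f = lk sgL e f * lk l a (pos e f) := rfl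

theorem tz_succ (i j : Fin 9) (a : Fin 10) :
    tz i.succ j.succ a = evl (F0L.getD a []) (i + 1) (j + 1) := by
  have h1 : tz i.succ j.succ a = tz a i.succ j.succ := by
    rw [(tz_symm i.succ j.succ a).2, (tz_symm i.succ a j.succ).1]
  rw [h1]
  rfl

theorem FP_real (a : Fin 10) (x : Fin 31) :
    ∑ b : Fin 10, PR a b * (lk F0L b x : ℝ) = (lk FPL a x : ℝ) := by
  have h := FPz a x
  rw [sumN_eq] at h
  have := congrArg (Int.cast : Int → ℝ) h
  push_cast at this
  exact this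

theorem pos_lt : ∀ e f : Fin 10, pos e f < 31 := by decide +kernel

theorem evlFP_real (a : Fin 10) (e f : Fin 10) :
    ∑ b : Fin 10, PR a b * (evl (F0L.getD b []) e f : ℝ) = (evl (FPL.getD a []) e f : ℝ) := by
  have h := FP_real a ⟨pos e f, pos_lt e f⟩
  simp only [evl_eq]
  push_cast
  rw [← h, Finset.mul_sum]
  refine Finset.sum_congr rfl fun b _ => ?_
  simp only
  ring

theorem Xt_eq (i j l m : Fin 9) :
    Xt τD i j l m = (yM τD).det * (1 / (232 * 232560)) * (Xz i j l m : ℝ) := by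
  unfold Xt
  rw [adj_eq]
  simp only [Matrix.smul_apply, τD, smul_eq_mul]
  simp only [tz_succ]
  simp only [Xz, sumN_eq]
  push_cast
  rw [Finset.mul_sum]
  refine Finset.sum_congr rfl fun a _ => ?_
  have h := evlFP_real a l.succ m.succ
  simp only [Fin.val_succ] at h
  rw [← h, Finset.mul_sum, Finset.mul_sum]
  refine Finset.sum_congr rfl fun b _ => ?_
  ring

theorem nrm_dvd : ∀ p : Fin 21, (85833942480 / (nrmL.getD p 1 : Int)) * (nrmL.getD p 1 : Int) =
    85833942480 ∧ 0 < nrmL.getD p 1 := by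
  decide +kernel

theorem nrm_pos (p : Fin 21) : (0 : ℝ) < (nrmL.getD p 1 : ℝ) := by
  exact_mod_cast (nrm_dvd p).2

theorem nrm_div (p : Fin 21) : ((85833942480 / (nrmL.getD p 1 : Int) : Int) : ℝ) =
    85833942480 / (nrmL.getD p 1 : ℝ) := by
  rw [eq_div_iff (nrm_pos p).ne']
  have h := (nrm_dvd p).1
  exact_mod_cast h

theorem compl_real (i j l m : Fin 9) :
    (Xz i j l m : ℝ) = 232560 * ((Zz i j l m : ℝ) -
      ∑ p : Fin 21, (Uz p i j : ℝ) * (Uz p l m : ℝ) / (nrmL.getD p 1 : ℝ)) := by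
  have h := compl ⟨pos i.succ j.succ, pos_lt i.succ j.succ⟩ ⟨pos l.succ m.succ, pos_lt l.succ m.succ⟩
  rw [sumN_eq, sumN_eq] at h
  have h2 := congrArg (Int.cast : Int → ℝ) h
  push_cast [nrm_div] at h2
  have hX : (Xz i j l m : ℝ) = (lk sgL (i + 1) (j + 1) : ℝ) * (lk sgL (l + 1) (m + 1) : ℝ) *
      ∑ a : Fin 10, (lk F0L a (pos (i + 1) (j + 1)) : ℝ) * (lk FPL a (pos (l + 1) (m + 1)) : ℝ) := by
    simp only [Xz, sumN_eq, evl_eq]
    push_cast
    rw [Finset.mul_sum]
    exact Finset.sum_congr rfl fun a _ => by ring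
  have hU : ∑ p : Fin 21, (Uz p i j : ℝ) * (Uz p l m : ℝ) / (nrmL.getD p 1 : ℝ) =
      (lk sgL (i + 1) (j + 1) : ℝ) * (lk sgL (l + 1) (m + 1) : ℝ) *
      ∑ p : Fin 21, (lk uL p (pos (i + 1) (j + 1)) : ℝ) * (lk uL p (pos (l + 1) (m + 1)) : ℝ) /
        (nrmL.getD p 1 : ℝ) := by
    simp only [Uz, evl_eq]
    push_cast
    rw [Finset.mul_sum]
    exact Finset.sum_congr rfl fun a _ => by ring
  have hZ : (Zz i j l m : ℝ) = (lk sgL (i + 1) (j + 1) : ℝ) * (lk sgL (l + 1) (m + 1) : ℝ) *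
      if pos (i + 1) (j + 1) = pos (l + 1) (m + 1) then 1 else 0 := by
    unfold Zz
    split_ifs <;> push_cast <;> ring
  have h3 : (∑ p : Fin 21, 85833942480 / (nrmL.getD p 1 : ℝ) *
      ((lk uL p (pos (i + 1) (j + 1)) : ℝ) * (lk uL p (pos (l + 1) (m + 1)) : ℝ))) =
      85833942480 * ∑ p : Fin 21, (lk uL p (pos (i + 1) (j + 1)) : ℝ) *
        (lk uL p (pos (l + 1) (m + 1)) : ℝ) / (nrmL.getD p 1 : ℝ) := by
    rw [Finset.mul_sum]
    exact Finset.sum_congr rfl fun a _ => by ring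
  simp only [Fin.val_succ, Fin.mk.injEq] at h2
  rw [h3] at h2
  rw [hX, hU, hZ]
  by_cases hp : pos (i + 1) (j + 1) = pos (l + 1) (m + 1)
  · rw [if_pos hp] at h2 ⊢
    linear_combination (lk sgL (i + 1) (j + 1) : ℝ) * (lk sgL (l + 1) (m + 1) : ℝ) / 369083 * h2
  · rw [if_neg hp] at h2 ⊢
    linear_combination (lk sgL (i + 1) (j + 1) : ℝ) * (lk sgL (l + 1) (m + 1) : ℝ) / 369083 * h2

theorem Rs_diag (i j l m : Fin 9) : Rs UD (-diagonal wD) i j l m =
    -(∑ p : Fin 21, wD p * ((Uz p i l : ℝ) * (Uz p j m : ℝ) - (Uz p i m : ℝ) * (Uz p j l : ℝ))) := by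
  have h : ∀ a b c d : Fin 9, ∑ p, ∑ q, (-diagonal wD) p q * (UD p a b * UD q c d) =
      -(∑ p : Fin 21, wD p * ((Uz p a b : ℝ) * (Uz p c d : ℝ))) := by
    intro a b c d
    rw [← Finset.sum_neg_distrib]
    refine Finset.sum_congr rfl fun p _ => ?_
    rw [Finset.sum_eq_single p]
    · simp [UD]
    · intro q _ hq
      simp [diagonal_apply_ne _ hq.symm]
    · simp
  simp only [Rs, alt]
  rw [h, h, ← Finset.sum_neg_distrib, ← Finset.sum_neg_distrib, ← Finset.sum_neg_distrib,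
    ← Finset.sum_sub_distrib]
  exact Finset.sum_congr rfl fun p _ => by ring

theorem alt_Xt_eq (i j l m : Fin 9) :
    alt (Xt τD) i j l m = (yM τD).det * Rs UD (-diagonal wD) i j l m := by
  have hZ : Zz i l j m = Zz i m j l := Zz_alt i j l m
  unfold alt
  rw [Xt_eq, Xt_eq, compl_real, compl_real, Rs_diag, hZ]
  have e1 : ∑ p : Fin 21, wD p * ((Uz p i l : ℝ) * (Uz p j m : ℝ) - (Uz p i m : ℝ) * (Uz p j l : ℝ)) =
      (1 / 232) * (∑ p : Fin 21, (Uz p i l : ℝ) * (Uz p j m : ℝ) / (nrmL.getD p 1 : ℝ)) -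
      (1 / 232) * (∑ p : Fin 21, (Uz p i m : ℝ) * (Uz p j l : ℝ) / (nrmL.getD p 1 : ℝ)) := by
    rw [Finset.mul_sum, Finset.mul_sum, ← Finset.sum_sub_distrib]
    refine Finset.sum_congr rfl fun p _ => ?_
    have := (nrm_pos p).ne'
    unfold wD
    field_simp
  rw [e1]
  ring

theorem Pz_symm : ∀ a b : Fin 10, lk PzL a b = lk PzL b a := by decide +kernel

theorem Gt_eq (a e g : Fin 9) :
    A4.Gt τD a e g = (yM τD).det * (1 / 232560) * (Guz a e g : ℝ) := by
  unfold A4.Gt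
  rw [adj_eq]
  simp only [Matrix.smul_apply, smul_eq_mul, τD, tz_succ]
  have h := evlFP_real g.succ a.succ e.succ
  simp only [Fin.val_succ] at h
  simp only [Guz]
  rw [← h, Finset.mul_sum]
  refine Finset.sum_congr rfl fun b _ => ?_
  have h2 : PR b g.succ = PR g.succ b := by
    simp only [PR, Pz_symm b g.succ]
  rw [h2]
  ring

theorem tf_eq (a e g : Fin 9) :
    A4.tf (A4.Gt τD) a e g = (yM τD).det * (1 / 232560) * G0D a e g := by
  have htr : ∀ a : Fin 9, ∑ h, A4.Gt τD a h h =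
      (yM τD).det * (1 / 232560) * (trz a : ℝ) := by
    intro a
    simp only [Gt_eq, trz, sumN_eq]
    push_cast
    rw [Finset.mul_sum]
  unfold A4.tf
  rw [htr, htr, Gt_eq]
  simp only [G0D, GzM, Fin.ext_iff]
  push_cast
  split_ifs <;> ring

theorem kap_ne : (yM τD).det * (1 / 232560) ≠ 0 := mul_ne_zero det_ne (by norm_num)

theorem G0_eq : G0D = ((yM τD).det * (1 / 232560))⁻¹ • A4.tf (A4.Gt τD) := by
  funext a e g
  simp only [Pi.smul_apply, smul_eq_mul, tf_eq]
  rw [← mul_assoc, inv_mul_cancel₀ kap_ne, one_mul]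

theorem Bi_tf {X : E4 9 ℝ} (hX : A4.IsX X) {G : Fin 9 → Fin 9 → Fin 9 → ℝ}
    (hB : ∀ a b c d e, Bi (alt X) G a b c d e = 0) (a b c d e : Fin 9) :
    Bi (alt X) (A4.tf G) a b c d e = 0 := by
  have hB' := hB a b c d e
  unfold Bi at hB' ⊢
  rw [A4.sum_tf, A4.sum_tf, A4.sum_tf]
  have e1 : alt X b c d a + alt X c a d b + alt X a b d c = 0 := by
    unfold alt
    have p1 : X b d c a = X a c b d := by rw [hX.2 b d c a, hX.1 c a b d]
    have p2 : X c d a b = X b a c d := by rw [hX.2 c d a b, hX.1 a b c d]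
    have p3 : X a d b c = X c b a d := by rw [hX.2 a d b c, hX.1 b c a d]
    rw [p1, p2, p3]
    ring
  have e2 : alt X b c a e + alt X c a b e + alt X a b c e = 0 := by
    unfold alt
    have p1 : X b a c e = X c e a b := by rw [hX.2 c e a b, hX.1 a b c e]
    have p2 : X b e c a = X a c b e := by rw [hX.2 b e c a, hX.1 c a b e]
    have p3 : X c b a e = X a e b c := by rw [hX.2 a e b c, hX.1 b c a e]
    rw [p1, p2, p3]
    ring
  linear_combination ((9 : ℕ) + 1 : ℝ) * hB' - (∑ h, G e h h) * e1 + (∑ h, G d h h) * e2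

theorem sol (a b c d e : Fin 9) : Bi (Rs UD (-diagonal wD)) G0D a b c d e = 0 := by
  have h1 := Bi_tf (A4.isX_Xt symT) (A4.Bi_Gt symT) a b c d e
  have h2 : alt (Xt τD) = (yM τD).det • Rs UD (-diagonal wD) := by
    funext i j l m
    exact alt_Xt_eq i j l m
  rw [h2, A3.Bi_smul_left] at h1
  have h3 := (mul_eq_zero.1 h1).resolve_left det_ne
  rw [G0_eq, A3.Bi_smul_right, h3, mul_zero]

theorem isG0 : IsG G0D := by
  have hs : ∀ a e g : Fin 9, A4.Gt τD a e g = A4.Gt τD e a g := A4.Gt_symm symT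
  rw [G0_eq]
  refine A3.isG_smul _ ⟨fun a e g => ?_, fun a => ?_⟩
  · unfold A4.tf
    rw [hs a e g]
    ring
  · unfold A4.tf
    simp only [if_true, mul_one, Finset.sum_sub_distrib, ← Finset.mul_sum, Finset.sum_const,
      Finset.card_univ, Fintype.card_fin, nsmul_eq_mul, mul_ite, mul_zero, Finset.sum_ite_eq,
      Finset.mem_univ]
    ring

theorem R0_eq (i j l m : Fin 9) :
    Rs UD (-diagonal wD) i j l m = (1 / (232 * 232560)) * (RzM i j l m : ℝ) := by
  have h := alt_Xt_eq i j l m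
  have h2 : alt (Xt τD) i j l m =
      (yM τD).det * ((1 / (232 * 232560)) * (RzM i j l m : ℝ)) := by
    simp only [alt, Xt_eq, RzM]
    push_cast
    ring
  rw [h2] at h
  exact (mul_left_cancel₀ det_ne h).symm

/-- The real array `RzM`. -/
noncomputable def RR : E4 9 ℝ := fun i j l m => (RzM i j l m : ℝ)

theorem Rs_eq_smul : Rs UD (-diagonal wD) = (1 / (232 * 232560) : ℝ) • RR := by
  funext i j l m
  exact R0_eq i j l m

/-- The statement of the certificate. -/
def RigidInt : Prop :=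
  ∀ (G : Fin 9 → Fin 9 → Fin 9 → ℝ) (s : Matrix (Fin 21) (Fin 21) ℝ), IsG G → s.IsSymm →
    (∀ a b c d e, Bi RR G a b c d e + Bi (Rs UD s) G0D a b c d e = 0) →
    G 0 0 3 = 0 → s 0 0 = 0 → G = 0 ∧ s = 0

theorem G0_pin : GzM 0 0 3 ≠ 0 := by decide +kernel

theorem Bi_add_left {k : ℕ} (R R' : E4 k ℝ) (G : Fin k → Fin k → Fin k → ℝ)
    (a b c d e : Fin k) : Bi (R + R') G a b c d e = Bi R G a b c d e + Bi R' G a b c d e := by
  simp only [Bi, Pi.add_apply, add_mul, mul_add, Finset.sum_sub_distrib, Finset.sum_add_distrib]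
  ring

theorem Bi_add_right {k : ℕ} (R : E4 k ℝ) (G G' : Fin k → Fin k → Fin k → ℝ)
    (a b c d e : Fin k) : Bi R (G + G') a b c d e = Bi R G a b c d e + Bi R G' a b c d e := by
  simp only [Bi, Pi.add_apply, add_mul, mul_add, Finset.sum_sub_distrib, Finset.sum_add_distrib]
  ring

theorem Rs_add {k n : ℕ} (U : Fin n → Matrix (Fin k) (Fin k) ℝ) (s s' : Matrix (Fin n) (Fin n) ℝ) :
    Rs U (s + s') = Rs U s + Rs U s' := by
  funext i j l m
  simp only [Rs, alt, Pi.add_apply, Matrix.add_apply, add_mul, Finset.sum_add_distrib]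
  ring

theorem Rs_smul {k n : ℕ} (U : Fin n → Matrix (Fin k) (Fin k) ℝ) (r : ℝ)
    (s : Matrix (Fin n) (Fin n) ℝ) : Rs U (r • s) = r • Rs U s := by
  funext i j l m
  simp only [Rs, alt, Pi.smul_apply, Matrix.smul_apply, smul_eq_mul, mul_sub, Finset.mul_sum,
    mul_assoc]

theorem rigid_of (hc : RigidInt) (G : Fin 9 → Fin 9 → Fin 9 → ℝ) (s : Matrix (Fin 21) (Fin 21) ℝ)
    (hG : IsG G) (hs : s.IsSymm)
    (h : ∀ a b c d e, Bi (Rs UD (-diagonal wD)) G a b c d e + Bi (Rs UD s) G0D a b c d e = 0) :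
    (∃ c : ℝ, s = c • diagonal wD) ∧ ∃ c : ℝ, G = c • G0D := by
  have hw : wD 0 ≠ 0 := by
    have := nrm_pos 0
    unfold wD
    positivity
  have hg : G0D 0 0 3 ≠ 0 := by
    have h := G0_pin
    have e : G0D 0 0 3 = (GzM 0 0 3 : ℝ) := rfl
    rw [e]
    exact_mod_cast h
  set c₁ : ℝ := G 0 0 3 / G0D 0 0 3 with hc₁
  set c₂ : ℝ := s 0 0 / wD 0 with hc₂
  have key := hc (G + (-c₁) • G0D) ((232 * 232560 : ℝ) • (s + (-c₂) • diagonal wD)) ?_ ?_ ?_ ?_ ?_
  · obtain ⟨k1, k2⟩ := key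
    refine ⟨⟨c₂, ?_⟩, ⟨c₁, ?_⟩⟩
    · have h3 : s + (-c₂) • diagonal wD = 0 := by
        have := congrArg (fun M => ((232 * 232560 : ℝ)⁻¹) • M) k2
        simp only [smul_smul, smul_zero] at this
        norm_num at this
        rw [neg_smul]
        exact this
      rw [neg_smul] at h3
      exact add_neg_eq_zero.1 h3
    · rw [neg_smul] at k1
      exact add_neg_eq_zero.1 k1
  · obtain ⟨g1, g2⟩ := hG
    obtain ⟨g3, g4⟩ := isG0
    refine ⟨fun a e g => ?_, fun a => ?_⟩
    · simp only [Pi.add_apply, Pi.smul_apply]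
      rw [g1 a e g, g3 a e g]
    · simp only [Pi.add_apply, Pi.smul_apply, Finset.sum_add_distrib, smul_eq_mul,
        ← Finset.mul_sum, g2 a, g4 a, mul_zero, add_zero]
  · unfold Matrix.IsSymm at hs ⊢
    rw [transpose_smul, transpose_add, transpose_smul, diagonal_transpose, hs]
  · intro a b c d e
    have e1 : Bi RR G a b c d e = (232 * 232560) * Bi (Rs UD (-diagonal wD)) G a b c d e := by
      rw [Rs_eq_smul, A3.Bi_smul_left]
      ring
    have e2 : Bi RR G0D a b c d e = 0 := by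
      have h1 := sol a b c d e
      rw [Rs_eq_smul, A3.Bi_smul_left] at h1
      exact (mul_eq_zero.1 h1).resolve_left (by norm_num)
    have e3 : Bi (Rs UD (diagonal wD)) G0D a b c d e = 0 := by
      have h1 := sol a b c d e
      rw [show -diagonal wD = (-1 : ℝ) • diagonal wD by rw [neg_smul, one_smul], Rs_smul,
        A3.Bi_smul_left] at h1
      linarith
    rw [Bi_add_right, A3.Bi_smul_right, e1, e2, Rs_smul, A3.Bi_smul_left, Rs_add, Bi_add_left,
      Rs_smul, A3.Bi_smul_left, e3]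
    have := h a b c d e
    linear_combination (232 * 232560) * this
  · simp only [Pi.add_apply, Pi.smul_apply, smul_eq_mul, hc₁]
    field_simp
    ring
  · simp only [Matrix.smul_apply, Matrix.add_apply, smul_eq_mul, diagonal_apply_eq, hc₂]
    field_simp
    ring

theorem Uz_symm : ∀ (p : Fin 21) (i j : Fin 9), Uz p i j = Uz p j i := by decide +kernel

theorem wD_pos (p : Fin 21) : 0 < wD p := by
  have := nrm_pos p
  unfold wD
  positivity

theorem tau000 : τD 0 0 0 = 1 := by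
  have h : tz 0 0 0 = 232 := by decide +kernel
  have e : τD 0 0 0 = (tz 0 0 0 : ℝ) / 232 := rfl
  rw [e, h]
  norm_num

theorem stmtD_of (hc : RigidInt) : StmtD := by
  refine ⟨9, 21, τD, UD, wD, G0D, by norm_num, symT, tau000, posDef, alt_Xt_eq, ?_⟩
  refine ⟨by norm_num, fun p => ?_, wD_pos, isG0, fun h => ?_, sol, rigid_of hc⟩
  · ext i j
    simp only [transpose_apply, UD, Uz_symm p j i]
  · have h1 : G0D 0 0 3 = 0 := by
      rw [h]
      rfl
    have e : G0D 0 0 3 = (GzM 0 0 3 : ℝ) := rfl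
    rw [e] at h1
    have h2 : GzM 0 0 3 = 0 := by exact_mod_cast h1
    exact G0_pin h2

end Vale.Agent.P256.PL.D
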