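import Vale.Agent.P256.PL.D.PackK

/-!
# P256: correctness of the packed right inverse certificate
-/

namespace Vale.Agent.P256.PL.D

/-- Packing of digits in base `65536`. -/
def pk : ℕ → (ℕ → ℕ) → ℕ
  | 0, _ => 0
  | n + 1, f => f 0 + 65536 * pk n (fun j => f (j + 1))

theorem pk_congr {n : ℕ} {f g : ℕ → ℕ} (h : ∀ j, f j = g j) : pk n f = pk n g := by
  rw [show f = g from funext h]

theorem pk_zero (n : ℕ) : pk n (fun _ => 0) = 0 := by
  induction n with
  | zero => rfl
  | succ n ih => simp only [pk, ih]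

theorem pk_add (n : ℕ) (f g : ℕ → ℕ) : pk n (fun j => f j + g j) = pk n f + pk n g := by
  induction n generalizing f g with
  | zero => rfl
  | succ n ih =>
    simp only [pk]
    rw [ih (fun j => f (j + 1)) (fun j => g (j + 1))]
    ring

theorem pk_mul (n c : ℕ) (f : ℕ → ℕ) : pk n (fun j => c * f j) = c * pk n f := by
  induction n generalizing f with
  | zero => simp [pk]
  | succ n ih =>
    simp only [pk]
    rw [ih (fun j => f (j + 1))]
    ring

theorem spread_eq (n m : ℕ) : spread n m = pk n (fun j => m / 16 ^ j % 16) := by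
  induction n generalizing m with
  | zero => rfl
  | succ n ih =>
    simp only [pk, spread, pow_zero, Nat.div_one]
    change m % 16 + 65536 * spread n (m / 16) = _
    rw [ih]
    congr 2
    apply pk_congr
    intro j
    rw [Nat.div_div_eq_div_mul, pow_succ']

theorem spread_lt (n m : ℕ) : spread n m < 2 ^ (16 * n) := by
  induction n generalizing m with
  | zero => simp [spread]
  | succ n ih =>
    change m % 16 + 65536 * spread n (m / 16) < _
    have h1 := ih (m / 16)
    have h2 : m % 16 < 16 := Nat.mod_lt _ (by norm_num)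
    have h3 : 2 ^ (16 * (n + 1)) = 65536 * 2 ^ (16 * n) := by
      rw [show 16 * (n + 1) = 16 * n + 16 by ring, pow_add]; norm_num [mul_comm]
    rw [h3]
    omega

theorem slot_eq (T w i : ℕ) : slot T w i = T / 2 ^ (w * i) % 2 ^ w := by
  change (T >>> (w * i)) % 2 ^ w = _
  rw [Nat.shiftRight_eq_div_pow]

theorem slot_tabN (n : ℕ) (l : List ℕ) (u : ℕ) (hu : u < l.length) :
    slot (tabN n l) (16 * n) u = spread n (l.getD u 0) := by
  induction l generalizing u with
  | nil => simp at hu
  | cons m l ih =>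
    rw [slot_eq]
    have hT : tabN n (m :: l) = spread n m + 2 ^ (16 * n) * tabN n l := rfl
    rw [hT]
    cases u with
    | zero =>
      simp only [Nat.mul_zero, pow_zero, Nat.div_one, List.getD_cons_zero]
      rw [Nat.add_mul_mod_self_left, Nat.mod_eq_of_lt (spread_lt n m)]
    | succ u =>
      have hu' : u < l.length := by simpa using hu
      rw [List.getD_cons_succ, ← ih u hu', slot_eq]
      rw [show 16 * n * (u + 1) = 16 * n + 16 * n * u by ring, pow_add, ← Nat.div_div_eq_div_mul,
        Nat.add_mul_div_left _ _ (by positivity), Nat.div_eq_of_lt (spread_lt n m), zero_add]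

/-- The entries of the right inverse. -/
def dg (nuc : List ℕ) (u j : ℕ) : ℕ := nuc.getD u 0 / 16 ^ j % 16

theorem evN_eq (n o : ℕ) (nuc : List ℕ) (hn : nuc.length = n) (l : List (ℕ × ℕ))
    (h : ∀ t ∈ l, o ≤ t.2 ∧ t.2 < o + n) :
    evN (tabN n nuc) (16 * n) o l = pk n (fun j => evT l fun v => dg nuc (v - o) j) := by
  induction l with
  | nil => simp [evN, evT, pk_zero]
  | cons t l ih =>
    have h1 : evN (tabN n nuc) (16 * n) o (t :: l) =
      t.1 * slot (tabN n nuc) (16 * n) (t.2 - o) + evN (tabN n nuc) (16 * n) o l := rfl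
    have h2 := h t List.mem_cons_self
    rw [h1, slot_tabN _ _ _ (by omega), ih fun t' ht' => h t' (List.mem_cons_of_mem _ ht'),
      spread_eq, ← pk_mul, ← pk_add]
    apply pk_congr
    intro j
    simp [evT, dg]

theorem csum_spec (o n : ℕ) (l : List (ℕ × ℕ)) (h : csum o n l ≤ 4000) :
    (∀ t ∈ l, o ≤ t.2 ∧ t.2 < o + n) ∧ ∀ (f : ℕ → ℕ), (∀ v, f v ≤ 15) →
      evT l f ≤ 15 * csum o n l := by
  induction l with
  | nil => simp [evT, csum]
  | cons t l ih =>
    have h1 : csum o n (t :: l) = bif (Nat.ble o t.2 && Nat.blt t.2 (o + n)) then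
      t.1 + csum o n l else 100000 := rfl
    rw [h1] at h ⊢
    by_cases hc : (Nat.ble o t.2 && Nat.blt t.2 (o + n)) = true
    · rw [hc] at h ⊢
      simp only [cond_true] at h ⊢
      have h2 := ih (by omega)
      simp only [Bool.and_eq_true, Nat.ble_eq, Nat.blt_eq] at hc
      refine ⟨?_, ?_⟩
      · intro t' ht'
        rcases List.mem_cons.1 ht' with rfl | h3
        · exact hc
        · exact h2.1 t' h3
      · intro f hf
        have h3 := h2.2 f hf
        have h4 : evT (t :: l) f = t.1 * f t.2 + evT l f := by simp [evT]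
        rw [h4]
        have h5 : t.1 * f t.2 ≤ t.1 * 15 := Nat.mul_le_mul_left _ (hf _)
        omega
    · rw [Bool.not_eq_true] at hc
      rw [hc] at h
      simp at h

theorem chk_spec (n j i : ℕ) (f : ℕ → ℕ) (hf : ∀ v, f v < 65536)
    (h : chk n j i (pk n f) = true) : ∀ v < n, f v % 7 = if j + v = i then 1 else 0 := by
  induction n generalizing j f with
  | zero => intro v hv; omega
  | succ n ih =>
    have h1 : chk (n + 1) j i (pk (n + 1) f) =
      (Nat.beq (pk (n + 1) f % 65536 % 7) (bif Nat.beq j i then 1 else 0) &&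
        chk n (j + 1) i (pk (n + 1) f / 65536)) := rfl
    have h2 : pk (n + 1) f = f 0 + 65536 * pk n (fun j => f (j + 1)) := rfl
    rw [h1, h2, Nat.add_mul_mod_self_left, Nat.mod_eq_of_lt (hf 0),
      Nat.add_mul_div_left _ _ (by norm_num), Nat.div_eq_of_lt (hf 0), zero_add,
      Bool.and_eq_true] at h
    have h3 := ih (j + 1) (fun j => f (j + 1)) (fun v => hf _) h.2
    intro v hv
    cases v with
    | zero =>
      have h4 := Nat.eq_of_beq_eq_true h.1
      rw [h4]
      by_cases hji : j = i
      · subst hji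
        simp
      · have : Nat.beq j i = false := by
          rw [← Bool.not_eq_true]
          exact fun hb => hji (Nat.eq_of_beq_eq_true hb)
        simp [this, hji]
    | succ v =>
      have h4 := h3 v (by omega)
      rw [h4]
      congr 1
      rw [show j + 1 + v = j + (v + 1) by ring]

theorem evT_cast (l : List (ℕ × ℕ)) (f : ℕ → ℕ) :
    ((evT l f : ℕ) : ZMod 7) = evT l fun v => ((f v : ℕ) : ZMod 7) := by
  induction l with
  | nil => simp [evT]
  | cons t l ih =>
    have h1 : evT (t :: l) f = t.1 * f t.2 + evT l f := by simp [evT]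
    have h2 : (evT (t :: l) fun v => ((f v : ℕ) : ZMod 7)) =
      t.1 * ((f t.2 : ℕ) : ZMod 7) + evT l fun v => ((f v : ℕ) : ZMod 7) := by simp [evT]
    rw [h1, h2, Nat.cast_add, Nat.cast_mul, ih]

theorem evT_congr {A : Type*} [CommSemiring A] (l : List (ℕ × ℕ)) (f g : ℕ → A)
    (h : ∀ t ∈ l, f t.2 = g t.2) : evT l f = evT l g := by
  unfold evT
  congr 1
  apply List.map_congr_left
  intro t ht
  rw [h t ht]

theorem evT_add {A : Type*} [CommSemiring A] (l : List (ℕ × ℕ)) (f g : ℕ → A) :
    (evT l fun v => f v + g v) = evT l f + evT l g := by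
  induction l with
  | nil => simp [evT]
  | cons t l ih =>
    simp only [evT, List.map_cons, List.sum_cons] at ih ⊢
    rw [ih]
    ring

theorem evT_mul {A : Type*} [CommSemiring A] (l : List (ℕ × ℕ)) (c : A) (f : ℕ → A) :
    (evT l fun v => c * f v) = c * evT l f := by
  induction l with
  | nil => simp [evT]
  | cons t l ih =>
    simp only [evT, List.map_cons, List.sum_cons] at ih ⊢
    rw [ih]
    ring

/-- Extension by zero. -/
def ext0 (n o : ℕ) (y : Fin n → ZMod 7) (v : ℕ) : ZMod 7 :=
  if h : o ≤ v ∧ v - o < n then y ⟨v - o, h.2⟩ else 0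

/-- The linear map of the block. -/
def phi (n o : ℕ) (rows : ℕ → List (ℕ × ℕ)) : (Fin n → ZMod 7) →ₗ[ZMod 7] (Fin n → ZMod 7) where
  toFun y i := evT (rows i) (ext0 n o y)
  map_add' y z := by
    funext i
    rw [Pi.add_apply, ← evT_add]
    apply evT_congr
    intro t _
    unfold ext0
    split_ifs <;> simp
  map_smul' c y := by
    funext i
    rw [Pi.smul_apply, RingHom.id_apply, smul_eq_mul, ← evT_mul]
    apply evT_congr
    intro t _
    unfold ext0
    split_ifs <;> simp

theorem rowOK_spec (n o i : ℕ) (nuc : List ℕ) (hn : nuc.length = n) (l : List (ℕ × ℕ))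
    (h : rowOK n o i (tabN n nuc) l = true) :
    (∀ t ∈ l, o ≤ t.2 ∧ t.2 < o + n) ∧
      ∀ j < n, (evT l fun v => ((dg nuc (v - o) j : ℕ) : ZMod 7)) = if j = i then 1 else 0 := by
  have h0 : rowOK n o i (tabN n nuc) l = (Nat.ble (csum o n l) 4000 &&
    chk n 0 i (evN (tabN n nuc) (16 * n) o l)) := rfl
  rw [h0, Bool.and_eq_true, Nat.ble_eq] at h
  obtain ⟨h1, h2⟩ := h
  obtain ⟨h3, h4⟩ := csum_spec o n l h1
  refine ⟨h3, fun j hj => ?_⟩
  rw [evN_eq n o nuc hn l h3] at h2
  have h5 : ∀ v, (evT l fun v' => dg nuc (v' - o) v) < 65536 := by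
    intro v
    have := h4 (fun v' => dg nuc (v' - o) v) (fun v' => by
      unfold dg
      have : nuc.getD (v' - o) 0 / 16 ^ v % 16 < 16 := Nat.mod_lt _ (by norm_num)
      omega)
    omega
  have h6 := chk_spec n 0 i _ h5 h2 j hj
  rw [zero_add] at h6
  rw [← evT_cast l fun v => dg nuc (v - o) j, ← ZMod.natCast_mod, h6]
  split_ifs <;> simp

/-- The block theorem. -/
theorem block (n o : ℕ) (nuc : List ℕ) (hn : nuc.length = n) (rows : ℕ → List (ℕ × ℕ))
    (h : ∀ i < n, rowOK n o i (tabN n nuc) (rows i) = true) (x : ℕ → ZMod 7)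
    (hx : ∀ i < n, evT (rows i) x = 0) : ∀ u < n, x (o + u) = 0 := by
  haveI : Fact (Nat.Prime 7) := ⟨by norm_num⟩
  have hs : Function.Surjective (phi n o rows) := by
    intro z
    refine ⟨∑ j : Fin n, z j • fun u : Fin n => ((dg nuc u j : ℕ) : ZMod 7), ?_⟩
    rw [map_sum]
    funext i
    rw [Finset.sum_apply]
    have h1 : ∀ j : Fin n, (phi n o rows (z j • fun u : Fin n => ((dg nuc u j : ℕ) : ZMod 7))) i =
        z j * if (j : ℕ) = i then 1 else 0 := by
      intro j
      rw [map_smul, Pi.smul_apply, smul_eq_mul]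
      congr 1
      have h2 := rowOK_spec n o i nuc hn (rows i) (h i i.2)
      rw [← h2.2 j j.2]
      change evT (rows i) (ext0 n o fun u : Fin n => ((dg nuc u j : ℕ) : ZMod 7)) = _
      apply evT_congr
      intro t ht
      have h3 := h2.1 t ht
      unfold ext0
      rw [dif_pos ⟨h3.1, by omega⟩]
    rw [Finset.sum_congr rfl fun j _ => h1 j]
    simp [← Fin.ext_iff]
  have hi : Function.Injective (phi n o rows) := LinearMap.injective_iff_surjective.2 hs
  have h0 : (fun u : Fin n => x (o + u)) = 0 := by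
    apply hi
    rw [map_zero]
    funext i
    rw [Pi.zero_apply, ← hx i i.2]
    change evT (rows i) (ext0 n o fun u : Fin n => x (o + u)) = _
    apply evT_congr
    intro t ht
    have h3 := (rowOK_spec n o i nuc hn (rows i) (h i i.2)).1 t ht
    unfold ext0
    rw [dif_pos ⟨h3.1, by omega⟩]
    change x (o + (t.2 - o)) = x t.2
    congr 1
    omega
  intro u hu
  exact congrFun h0 ⟨u, hu⟩

theorem rowsOK_spec (n o T m i : ℕ) (h : rowsOK n o T m i = true) :
    ∀ v, i ≤ v → v < i + m → rowOK n o v T (rowT (o + v)) = true := by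
  induction m generalizing i with
  | zero => intro v h1 h2; omega
  | succ m ih =>
    have h0 : rowsOK n o T (m + 1) i = (rowOK n o i T (rowT (o + i)) &&
      rowsOK n o T m (i + 1)) := rfl
    rw [h0, Bool.and_eq_true] at h
    intro v h1 h2
    rcases Nat.eq_or_lt_of_le h1 with rfl | h3
    · exact h.1
    · exact ih (i + 1) h.2 v h3 (by omega)

/-- The block theorem for the rows `rowT`. -/
theorem blockT (n o : ℕ) (nuc : List ℕ) (hn : nuc.length = n)
    (h : rowsOK n o (tabN n nuc) n 0 = true) (x : ℕ → ZMod 7)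
    (hx : ∀ i < n, evT (rowT (o + i)) x = 0) : ∀ u < n, x (o + u) = 0 :=
  block n o nuc hn (fun i => rowT (o + i))
    (fun i hi => rowsOK_spec n o _ n 0 h i (Nat.zero_le _) (by omega)) x hx

end Vale.Agent.P256.PL.D
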