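import Vale.Agent.P256.PL.D.CDefs

/-!
# P256: the certificate, computing part
-/

namespace Vale.Agent.P256.PL.D

/-- Spreading of the base `16` digits of `m` to base `2 ^ 16`. -/
def spread : ℕ → ℕ → ℕ
  | 0, _ => 0
  | n + 1, m => Nat.add (Nat.mod m 16) (Nat.mul 65536 (spread n (Nat.div m 16)))

/-- The table with slots of `16 n` bits holding the spread rows. -/
def tabN (n : ℕ) : List ℕ → ℕ
  | [] => 0
  | m :: l => Nat.add (spread n m) (Nat.mul (Nat.pow 2 (Nat.mul 16 n)) (tabN n l))

/-- Value of the sparse form `l` at the table `T` (slots of width `w`, first unknown `o`). -/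
def evN (T w o : ℕ) : List (ℕ × ℕ) → ℕ
  | [] => 0
  | t :: l => Nat.add (Nat.mul t.1 (slot T w (Nat.sub t.2 o))) (evN T w o l)

/-- Sum of the coefficients; `none`-like large value if an index is not in `[o, o+n)`. -/
def csum (o n : ℕ) : List (ℕ × ℕ) → ℕ
  | [] => 0
  | t :: l => bif (Nat.ble o t.2 && Nat.blt t.2 (Nat.add o n)) then Nat.add t.1 (csum o n l)
      else 100000

/-- The digits of `T` modulo `7` are those of the `i`-th unit vector. -/
def chk : ℕ → ℕ → ℕ → ℕ → Bool
  | 0, _, _, _ => true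
  | n + 1, j, i, T => (Nat.beq (Nat.mod (Nat.mod T 65536) 7) (bif Nat.beq j i then 1 else 0)) &&
      chk n (Nat.add j 1) i (Nat.div T 65536)

/-- The check of one row. -/
def rowOK (n o i T : ℕ) (l : List (ℕ × ℕ)) : Bool :=
  Nat.ble (csum o n l) 4000 && chk n 0 i (evN T (Nat.mul 16 n) o l)

/-- The check of the rows `i, i+1, ..., i+m-1` of the block. -/
def rowsOK (n o T : ℕ) : ℕ → ℕ → Bool
  | 0, _ => true
  | m + 1, i => rowOK n o i T (rowT (Nat.add o i)) && rowsOK n o T m (Nat.add i 1)

end Vale.Agent.P256.PL.D
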