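import Vale.Agent.P256.PL.D.FinalOf

/-!
# P256: real semantics of the selected equations
-/

namespace Vale.Agent.P256.PL.D

open Matrix

section ev

variable {A : Type*} [CommRing A]

theorem evZ_append' (l l' : List (ℤ × ℕ)) (x : ℕ → A) :
    evZ (l ++ l') x = evZ l x + evZ l' x := by
  simp [evZ]

theorem evZ_single' (c : ℤ) (u : ℕ) (x : ℕ → A) : evZ [(c, u)] x = c * x u := by
  simp [evZ]

theorem sum_range' (n : ℕ) (f : ℕ → A) : ((List.range n).map f).sum = ∑ i : Fin n, f i := by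
  induction n with
  | zero => simp
  | succ n ih =>
    rw [List.range_succ, List.map_append, List.sum_append, ih, Fin.sum_univ_castSucc]
    simp

theorem evZ_flatMap' (n : ℕ) (f : ℕ → List (ℤ × ℕ)) (x : ℕ → A) :
    evZ ((List.range n).flatMap f) x = ∑ i : Fin n, evZ (f i) x := by
  rw [← sum_range' n fun i => evZ (f i) x]
  generalize List.range n = l
  induction l with
  | nil => simp [evZ]
  | cons a l ih => rw [List.flatMap_cons, evZ_append', ih]; simp

theorem evZ_map' (n : ℕ) (f : ℕ → ℤ × ℕ) (x : ℕ → A) :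
    evZ ((List.range n).map f) x = ∑ i : Fin n, ((f i).1 : A) * x (f i).2 := by
  rw [← sum_range' n fun i => ((f i).1 : A) * x (f i).2]
  simp [evZ, List.map_map, Function.comp_def]

theorem evZ_vZ' (c : ℤ) (i j l m : ℕ) (x : ℕ → A) :
    evZ (vZ c i j l m) x = (c : A) * ∑ p : Fin 21, ∑ q : Fin 21,
      x (si p q) * ((Uz p i j : A) * (Uz q l m : A)) := by
  unfold vZ
  rw [evZ_flatMap', Finset.mul_sum]
  refine Finset.sum_congr rfl fun p _ => ?_
  rw [evZ_map', Finset.mul_sum]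
  refine Finset.sum_congr rfl fun q _ => ?_
  push_cast
  ring

end ev

/-- Reduction to `Fin 9`. -/
def f9 (n : ℕ) : Fin 9 := ⟨n % 9, Nat.mod_lt _ (by norm_num)⟩

/-- Reduction to `Fin 21`. -/
def f21 (n : ℕ) : Fin 21 := ⟨n % 21, Nat.mod_lt _ (by norm_num)⟩

/-- The vector of the unknowns. -/
noncomputable def xv (G : Fin 9 → Fin 9 → Fin 9 → ℝ) (s : Matrix (Fin 21) (Fin 21) ℝ) (u : ℕ) :
    ℝ :=
  if dT u < 729 then G (f9 (dT u / 81)) (f9 (dT u / 9 % 9)) (f9 (dT u % 9))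
  else s (f21 ((dT u - 729) / 21)) (f21 ((dT u - 729) % 21))

theorem dT_gi : ∀ a e g : Fin 9, (dT (gi a e g) = (a * 9 + e) * 9 + g) ∨
    (dT (gi a e g) = (e * 9 + a) * 9 + g) := by decide +kernel

theorem dT_si : ∀ p q : Fin 21, (dT (si p q) = 729 + p * 21 + q) ∨
    (dT (si p q) = 729 + q * 21 + p) := by decide +kernel

theorem G_dec (G : Fin 9 → Fin 9 → Fin 9 → ℝ) (a e g : Fin 9) (c : ℕ)
    (hc : c = (a * 9 + e) * 9 + g) : G (f9 (c / 81)) (f9 (c / 9 % 9)) (f9 (c % 9)) = G a e g := by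
  have h1 : f9 (c / 81) = a := by
    apply Fin.ext
    change c / 81 % 9 = a
    omega
  have h2 : f9 (c / 9 % 9) = e := by
    apply Fin.ext
    change c / 9 % 9 % 9 = e
    omega
  have h3 : f9 (c % 9) = g := by
    apply Fin.ext
    change c % 9 % 9 = g
    omega
  rw [h1, h2, h3]

theorem s_dec (s : Matrix (Fin 21) (Fin 21) ℝ) (p q : Fin 21) (c : ℕ)
    (hc : c = 729 + p * 21 + q) :
    s (f21 ((c - 729) / 21)) (f21 ((c - 729) % 21)) = s p q := by
  have h1 : f21 ((c - 729) / 21) = p := by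
    apply Fin.ext
    change (c - 729) / 21 % 21 = p
    omega
  have h2 : f21 ((c - 729) % 21) = q := by
    apply Fin.ext
    change (c - 729) % 21 % 21 = q
    omega
  rw [h1, h2]

theorem xv_gi (G : Fin 9 → Fin 9 → Fin 9 → ℝ) (s : Matrix (Fin 21) (Fin 21) ℝ) (hG : IsG G)
    (a e g : Fin 9) : xv G s (gi a e g) = G a e g := by
  unfold xv
  rcases dT_gi a e g with h | h
  · rw [if_pos (by omega), G_dec G a e g _ h]
  · rw [if_pos (by omega), G_dec G e a g _ h, hG.1]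

theorem xv_si (G : Fin 9 → Fin 9 → Fin 9 → ℝ) (s : Matrix (Fin 21) (Fin 21) ℝ) (hs : s.IsSymm)
    (p q : Fin 21) : xv G s (si p q) = s p q := by
  unfold xv
  rcases dT_si p q with h | h
  · rw [if_neg (by omega), s_dec s p q _ h]
  · rw [if_neg (by omega), s_dec s q p _ h, hs.apply]

theorem evZ_vZ_real (G : Fin 9 → Fin 9 → Fin 9 → ℝ) (s : Matrix (Fin 21) (Fin 21) ℝ)
    (hs : s.IsSymm) (c : ℤ) (i j l m : Fin 9) :
    evZ (vZ c i j l m) (xv G s) = (c : ℝ) * ∑ p : Fin 21, ∑ q : Fin 21,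
      s p q * ((Uz p i j : ℝ) * (Uz q l m : ℝ)) := by
  rw [evZ_vZ']
  congr 1
  refine Finset.sum_congr rfl fun p _ => Finset.sum_congr rfl fun q _ => ?_
  rw [xv_si G s hs]

theorem evZ_cyZ (G : Fin 9 → Fin 9 → Fin 9 → ℝ) (s : Matrix (Fin 21) (Fin 21) ℝ) (hG : IsG G)
    (hs : s.IsSymm) (x y z d e : Fin 9) :
    evZ (cyZ x y z d e) (xv G s) =
    (∑ g : Fin 9, ((Rz y z d g : ℝ) * G x e g - G x d g * (Rz y z g e : ℝ))) +
    ∑ g : Fin 9, (Rs (fun (p : Fin 21) (i j : Fin 9) => (Uz p i j : ℝ)) s y z d g *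
      (Gz x e g : ℝ) - (Gz x d g : ℝ) *
      Rs (fun (p : Fin 21) (i j : Fin 9) => (Uz p i j : ℝ)) s y z g e) := by
  unfold cyZ
  rw [evZ_flatMap', ← Finset.sum_add_distrib]
  refine Finset.sum_congr rfl fun g _ => ?_
  rw [evZ_append', evZ_append', evZ_append', evZ_append', evZ_append', evZ_single', evZ_single',
    xv_gi G s hG, xv_gi G s hG, evZ_vZ_real G s hs, evZ_vZ_real G s hs, evZ_vZ_real G s hs,
    evZ_vZ_real G s hs]
  simp only [Rs, alt]
  push_cast
  ring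

theorem evZ_biZ (G : Fin 9 → Fin 9 → Fin 9 → ℝ) (s : Matrix (Fin 21) (Fin 21) ℝ) (hG : IsG G)
    (hs : s.IsSymm) (a b c d e : Fin 9) :
    evZ (biZ a b c d e) (xv G s) = Bi (fun i j l m : Fin 9 => (Rz i j l m : ℝ)) G a b c d e +
      Bi (Rs (fun (p : Fin 21) (i j : Fin 9) => (Uz p i j : ℝ)) s)
        (fun a e g : Fin 9 => (Gz a e g : ℝ)) a b c d e := by
  unfold biZ Bi
  rw [evZ_append', evZ_append', evZ_cyZ G s hG hs, evZ_cyZ G s hG hs, evZ_cyZ G s hG hs]
  ring

theorem semR653 : PSemR := by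
  intro G s hG hs h h1 h2
  refine ⟨xv G s, xv_gi G s hG, xv_si G s hs, fun i _ => ?_⟩
  unfold rowZ codeZ
  generalize eqc i = c
  by_cases c1 : Nat.ble 59059 c = true
  · rw [c1, cond_true, evZ_single']
    have := xv_si G s hs 0 0
    rw [h2] at this
    change _ * xv G s (si 0 0) = 0
    have h3 : xv G s (si 0 0) = 0 := this
    rw [h3, mul_zero]
  rw [Bool.not_eq_true] at c1
  rw [c1, cond_false]
  by_cases c2 : Nat.ble 59058 c = true
  · rw [c2, cond_true, evZ_single']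
    have := xv_gi G s hG 0 0 3
    rw [h1] at this
    have h3 : xv G s (gi 0 0 3) = 0 := this
    rw [h3, mul_zero]
  rw [Bool.not_eq_true] at c2
  rw [c2, cond_false]
  have c2' : c < 59058 := by
    by_contra hc
    have : Nat.ble 59058 c = true := by rw [Nat.ble_eq]; omega
    rw [c2] at this
    exact Bool.false_ne_true this
  by_cases c3 : Nat.ble 59049 c = true
  · rw [c3, cond_true, evZ_map']
    have c3' : 59049 ≤ c := by rwa [Nat.ble_eq] at c3
    have h4 := hG.2 (f9 (c - 59049))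
    rw [← h4]
    refine Finset.sum_congr rfl fun g _ => ?_
    have h5 : (f9 (c - 59049) : ℕ) = c - 59049 := by
      change (c - 59049) % 9 = c - 59049
      omega
    have h6 := xv_gi G s hG (f9 (c - 59049)) g g
    rw [h5] at h6
    simp only [Int.cast_one, one_mul]
    exact h6
  rw [Bool.not_eq_true] at c3
  rw [c3, cond_false]
  have c3' : c < 59049 := by
    by_contra hc
    have : Nat.ble 59049 c = true := by rw [Nat.ble_eq]; omega
    rw [c3] at this
    exact Bool.false_ne_true this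
  have h5 := evZ_biZ G s hG hs (f9 (c / 6561)) (f9 (c / 729 % 9)) (f9 (c / 81 % 9)) (f9 (c / 9 % 9))
    (f9 (c % 9))
  rw [h (f9 (c / 6561)) (f9 (c / 729 % 9)) (f9 (c / 81 % 9)) (f9 (c / 9 % 9)) (f9 (c % 9))] at h5
  have e1 : (f9 (c / 6561) : ℕ) = c / 6561 := by change c / 6561 % 9 = _; omega
  have e2 : (f9 (c / 729 % 9) : ℕ) = c / 729 % 9 := by change c / 729 % 9 % 9 = _; omega
  have e3 : (f9 (c / 81 % 9) : ℕ) = c / 81 % 9 := by change c / 81 % 9 % 9 = _; omega
  have e4 : (f9 (c / 9 % 9) : ℕ) = c / 9 % 9 := by change c / 9 % 9 % 9 = _; omega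
  have e5 : (f9 (c % 9) : ℕ) = c % 9 := by change c % 9 % 9 = _; omega
  rw [e1, e2, e3, e4, e5] at h5
  exact h5

end Vale.Agent.P256.PL.D
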